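import Vale.Agent.P208.Basic

/-! Averaged difference quotients on squares. -/

namespace Vale.Agent.P208

open Set

variable {E : Type*} [NormedAddCommGroup E] [InnerProductSpace ℝ E] [CompleteSpace E]

/-- Integral over an edge. -/
noncomputable def edge (g : ℝ → E) (y l : ℝ) : E := ∫ t in y..(y + l), g t

/-- Averaged difference quotient in the first variable over the square of side `l`. -/
noncomputable def tau (G : ℝ → ℝ → E) (x y l : ℝ) : E :=
  (l ^ 2)⁻¹ • (edge (G (x + l)) y l - edge (G x) y l)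

omit [CompleteSpace E] in
theorem edge_close {g g' : ℝ → E} {y l C : ℝ} (hl : 0 ≤ l)
    (hg : ContinuousOn g (Icc y (y + l))) (hg' : ContinuousOn g' (Icc y (y + l)))
    (h : ∀ t ∈ Icc y (y + l), ‖g t - g' t‖ ≤ C) : ‖edge g y l - edge g' y l‖ ≤ C * l := by
  have hle : y ≤ y + l := by linarith
  have hi : IntervalIntegrable g MeasureTheory.volume y (y + l) :=
    ContinuousOn.intervalIntegrable (by rwa [uIcc_of_le hle])
  have hi' : IntervalIntegrable g' MeasureTheory.volume y (y + l) :=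
    ContinuousOn.intervalIntegrable (by rwa [uIcc_of_le hle])
  unfold edge
  rw [← intervalIntegral.integral_sub hi hi']
  have := intervalIntegral.norm_integral_le_of_norm_le_const (a := y) (b := y + l) (C := C)
    (f := fun t => g t - g' t) (fun t ht => by
      rw [uIoc_of_le hle] at ht
      exact h t (Ioc_subset_Icc_self ht))
  simpa [abs_of_nonneg hl] using this

theorem edge_const (c : E) (y l : ℝ) : edge (fun _ => c) y l = l • c := by
  simp [edge]

omit [CompleteSpace E] in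
theorem edge_split {g : ℝ → E} {y δ : ℝ} (hδ : 0 ≤ δ) (N : ℕ)
    (hg : ContinuousOn g (Icc y (y + N * δ))) :
    ∑ r ∈ Finset.range N, edge g (y + r * δ) δ = edge g y (N * δ) := by
  have := intervalIntegral.sum_integral_adjacent_intervals (f := g) (μ := MeasureTheory.volume)
    (a := fun k : ℕ => y + k * δ) (n := N) (fun k hk => by
      apply ContinuousOn.intervalIntegrable
      have hk' : ((k + 1 : ℕ) : ℝ) ≤ N := by exact_mod_cast hk
      have h0 : (0 : ℝ) ≤ k * δ := by positivity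
      rw [uIcc_of_le (by push_cast; nlinarith)]
      refine hg.mono (Icc_subset_Icc (by linarith) ?_)
      nlinarith)
  unfold edge
  simp only [Nat.cast_zero, zero_mul, add_zero] at this
  rw [← this]
  refine Finset.sum_congr rfl fun k _ => ?_
  congr 1
  push_cast
  ring

omit [InnerProductSpace ℝ E] [CompleteSpace E] in
theorem contOn_of_lip {g : ℝ → E} {s : Set ℝ} {D : ℝ}
    (h : ∀ t ∈ s, ∀ t' ∈ s, ‖g t - g t'‖ ≤ D * |t - t'|) : ContinuousOn g s := by
  have : LipschitzOnWith (Real.toNNReal D) g s := by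
    refine LipschitzOnWith.of_dist_le_mul fun t ht t' ht' => ?_
    rw [dist_eq_norm, Real.dist_eq]
    exact (h t ht t' ht').trans
      (mul_le_mul_of_nonneg_right (Real.le_coe_toNNReal D) (abs_nonneg _))
  exact this.continuousOn

/-- `G` is `D`-Lipschitz on the square. -/
def LipSq (G : ℝ → ℝ → E) (D x y l : ℝ) : Prop :=
  ∀ u ∈ Icc x (x + l), ∀ v ∈ Icc y (y + l), ∀ u' ∈ Icc x (x + l), ∀ v' ∈ Icc y (y + l),
    ‖G u v - G u' v'‖ ≤ D * (|u - u'| + |v - v'|)

omit [InnerProductSpace ℝ E] [CompleteSpace E] in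
theorem LipSq.swap {G : ℝ → ℝ → E} {D x y l : ℝ} (h : LipSq G D x y l) :
    LipSq (fun v u => G u v) D y x l := fun v hv u hu v' hv' u' hu' => by
  rw [add_comm]; exact h u hu v hv u' hu' v' hv'

omit [InnerProductSpace ℝ E] [CompleteSpace E] in
theorem LipSq.contOn {G : ℝ → ℝ → E} {D x y l : ℝ} (h : LipSq G D x y l) {u : ℝ}
    (hu : u ∈ Icc x (x + l)) : ContinuousOn (G u) (Icc y (y + l)) :=
  contOn_of_lip (D := D) fun t ht t' ht' => by simpa using h u hu t ht u hu t' ht'

omit [CompleteSpace E] in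
theorem norm_tau_le {G : ℝ → ℝ → E} {D x y l : ℝ} (hl : 0 < l) (h : LipSq G D x y l) :
    ‖tau G x y l‖ ≤ D := by
  have hx : x ∈ Icc x (x + l) := ⟨le_rfl, by linarith⟩
  have hx' : x + l ∈ Icc x (x + l) := ⟨by linarith, le_rfl⟩
  have h1 := edge_close (C := D * l) hl.le (h.contOn hx') (h.contOn hx) (fun t ht => by
    have := h _ hx' t ht _ hx t ht
    simpa [abs_of_pos hl] using this)
  unfold tau
  rw [norm_smul, norm_inv, Real.norm_eq_abs, abs_of_pos (by positivity), inv_mul_le_iff₀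
    (by positivity)]
  nlinarith

omit [CompleteSpace E] in
theorem tau_telescope (G : ℝ → ℝ → E) (x y δ : ℝ) (hδ : 0 < δ) (L : ℕ) :
    ∑ c ∈ Finset.range L, (δ ^ 2) • tau G (x + c * δ) y δ
      = edge (G (x + L * δ)) y δ - edge (G x) y δ := by
  have h1 : ∀ c : ℕ, (δ ^ 2) • tau G (x + c * δ) y δ
      = edge (G (x + ((c + 1 : ℕ) : ℝ) * δ)) y δ - edge (G (x + c * δ)) y δ := by
    intro c
    unfold tau
    rw [smul_smul, mul_inv_cancel₀ (by positivity), one_smul]
    congr 3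
    push_cast
    ring
  simp only [h1]
  rw [Finset.sum_range_sub (fun c : ℕ => edge (G (x + (c : ℝ) * δ)) y δ)]
  simp

omit [CompleteSpace E] in
/-- The mean of the averaged quotients of the pieces is close to the quotient of the parent. -/
theorem mean_tau (G0 : ℝ → ℝ → E) (Gs : ℕ → ℕ → ℝ → ℝ → E) (x y δ D C : ℝ) (hδ : 0 < δ)
    (P A N : ℕ) (hN : N = P * A) (hA : 0 < A) (h0 : LipSq G0 D x y (N * δ))
    (hs : ∀ c < N, ∀ r < N, LipSq (Gs (c / A) r) D (x + c * δ) (y + r * δ) δ)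
    (hc : ∀ c < N, ∀ r < N, ∀ u ∈ Icc (x + c * δ) (x + c * δ + δ),
      ∀ v ∈ Icc (y + r * δ) (y + r * δ + δ), ‖Gs (c / A) r u v - G0 u v‖ ≤ C) :
    ‖∑ z ∈ Finset.range N ×ˢ Finset.range N,
        tau (Gs (z.1 / A) z.2) (x + z.1 * δ) (y + z.2 * δ) δ
      - ((Finset.range N ×ˢ Finset.range N).card : ℝ) • tau G0 x y (N * δ)‖
      ≤ 2 * P * N * C / δ := by
  have hδ2 : (0 : ℝ) < δ ^ 2 := by positivity
  -- closeness of edge integrals at strip boundaries
  have hsubI : ∀ r < N, Icc (y + r * δ) (y + r * δ + δ) ⊆ Icc y (y + N * δ) := by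
    intro r hr
    have hr' : ((r + 1 : ℕ) : ℝ) ≤ N := by exact_mod_cast hr
    push_cast at hr'
    have h0 : (0 : ℝ) ≤ r * δ := by positivity
    exact Icc_subset_Icc (by linarith) (by nlinarith)
  have hsubX : ∀ c < N, Icc (x + c * δ) (x + c * δ + δ) ⊆ Icc x (x + N * δ) := by
    intro r hr
    have hr' : ((r + 1 : ℕ) : ℝ) ≤ N := by exact_mod_cast hr
    push_cast at hr'
    have h0 : (0 : ℝ) ≤ r * δ := by positivity
    exact Icc_subset_Icc (by linarith) (by nlinarith)
  have hclose : ∀ c < N, ∀ r < N, ∀ u ∈ Icc (x + c * δ) (x + c * δ + δ),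
      ‖edge (Gs (c / A) r u) (y + r * δ) δ - edge (G0 u) (y + r * δ) δ‖ ≤ C * δ := by
    intro c hcN r hr u hu
    exact edge_close hδ.le ((hs c hcN r hr).contOn hu)
      ((h0.contOn (hsubX c hcN hu)).mono (hsubI r hr)) (fun t ht => hc c hcN r hr u hu t ht)
  -- the strip sums
  have hstrip : ∀ p < P, ∀ r < N,
      ‖∑ s ∈ Finset.range A, (δ ^ 2) • tau (Gs p r) (x + ((p * A + s : ℕ) : ℝ) * δ) (y + r * δ) δ
        - (edge (G0 (x + (((p + 1) * A : ℕ) : ℝ) * δ)) (y + r * δ) δ
          - edge (G0 (x + ((p * A : ℕ) : ℝ) * δ)) (y + r * δ) δ)‖ ≤ 2 * (C * δ) := by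
    intro p hp r hr
    have e1 : ∀ s : ℕ, x + ((p * A + s : ℕ) : ℝ) * δ = (x + ((p * A : ℕ) : ℝ) * δ) + s * δ := by
      intro s; push_cast; ring
    simp only [e1]
    rw [tau_telescope _ _ _ _ hδ]
    have e2 : x + ((p * A : ℕ) : ℝ) * δ + A * δ = x + (((p + 1) * A : ℕ) : ℝ) * δ := by
      push_cast; ring
    rw [e2]
    have hlt1 : p * A < N := by rw [hN]; exact Nat.mul_lt_mul_of_pos_right hp hA
    have hle2 : (p + 1) * A ≤ N := by rw [hN]; exact Nat.mul_le_mul_right A hp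
    have hlt2 : p * A + (A - 1) < N := by
      have : (p + 1) * A = p * A + A := by ring
      omega
    have hd1 : p * A / A = p := Nat.mul_div_cancel p hA
    have hd2 : (p * A + (A - 1)) / A = p := by
      rw [mul_comm, Nat.mul_add_div hA, Nat.div_eq_of_lt (by omega), add_zero]
    have k1 := hclose (p * A) hlt1 r hr (x + ((p * A : ℕ) : ℝ) * δ) ⟨le_rfl, by linarith⟩
    have e3 : x + ((p * A + (A - 1) : ℕ) : ℝ) * δ + δ = x + (((p + 1) * A : ℕ) : ℝ) * δ := by
      rw [Nat.cast_add, Nat.cast_sub (by omega)]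
      push_cast; ring
    have k2 := hclose (p * A + (A - 1)) hlt2 r hr (x + (((p + 1) * A : ℕ) : ℝ) * δ)
      ⟨by rw [← e3]; linarith, e3.ge⟩
    rw [hd1] at k1
    rw [hd2] at k2
    calc _ = ‖(edge (Gs p r (x + (((p + 1) * A : ℕ) : ℝ) * δ)) (y + r * δ) δ
            - edge (G0 (x + (((p + 1) * A : ℕ) : ℝ) * δ)) (y + r * δ) δ)
          - (edge (Gs p r (x + ((p * A : ℕ) : ℝ) * δ)) (y + r * δ) δ
            - edge (G0 (x + ((p * A : ℕ) : ℝ) * δ)) (y + r * δ) δ)‖ := by
          congr 1; abel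
      _ ≤ _ := (norm_sub_le _ _).trans (by linarith)
  -- the parent
  have hpar : (δ ^ 2) • (((Finset.range N ×ˢ Finset.range N).card : ℝ) • tau G0 x y (N * δ))
      = ∑ r ∈ Finset.range N, ∑ p ∈ Finset.range P,
        (edge (G0 (x + (((p + 1) * A : ℕ) : ℝ) * δ)) (y + r * δ) δ
          - edge (G0 (x + ((p * A : ℕ) : ℝ) * δ)) (y + r * δ) δ) := by
    have e1 : ∀ r : ℕ, ∑ p ∈ Finset.range P,
        (edge (G0 (x + (((p + 1) * A : ℕ) : ℝ) * δ)) (y + r * δ) δ
          - edge (G0 (x + ((p * A : ℕ) : ℝ) * δ)) (y + r * δ) δ)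
        = edge (G0 (x + N * δ)) (y + r * δ) δ - edge (G0 x) (y + r * δ) δ := by
      intro r
      rw [Finset.sum_range_sub (fun p : ℕ => edge (G0 (x + ((p * A : ℕ) : ℝ) * δ)) (y + r * δ) δ),
        ← hN]
      simp
    simp only [e1]
    have hN0 : (0 : ℝ) ≤ N * δ := by positivity
    rw [Finset.sum_sub_distrib, edge_split hδ.le N (h0.contOn ⟨by linarith, le_rfl⟩),
      edge_split hδ.le N (h0.contOn ⟨le_rfl, by linarith⟩)]
    rcases Nat.eq_zero_or_pos N with h | h
    · subst h; simp [edge]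
    · unfold tau
      have hNr : (0 : ℝ) < N := by exact_mod_cast h
      rw [smul_smul, smul_smul]
      simp only [Finset.card_product, Finset.card_range]
      rw [show δ ^ 2 * ((N * N : ℕ) : ℝ) * ((N * δ) ^ 2)⁻¹ = 1 by push_cast; field_simp, one_smul]
  have hch : (δ ^ 2) • ∑ z ∈ Finset.range N ×ˢ Finset.range N,
        tau (Gs (z.1 / A) z.2) (x + z.1 * δ) (y + z.2 * δ) δ
      = ∑ r ∈ Finset.range N, ∑ p ∈ Finset.range P, ∑ s ∈ Finset.range A,
        (δ ^ 2) • tau (Gs p r) (x + ((p * A + s : ℕ) : ℝ) * δ) (y + r * δ) δ := by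
    rw [Finset.smul_sum, Finset.sum_product, Finset.sum_comm]
    refine Finset.sum_congr rfl fun r _ => ?_
    conv_lhs => rw [hN]
    rw [sum_range_mul']
    refine Finset.sum_congr rfl fun p _ => Finset.sum_congr rfl fun s hs => ?_
    have : (p * A + s) / A = p := by
      rw [mul_comm, Nat.mul_add_div hA, Nat.div_eq_of_lt (by simpa using hs), add_zero]
    simp only [this]
  have hmain : ‖(δ ^ 2) • (∑ z ∈ Finset.range N ×ˢ Finset.range N,
        tau (Gs (z.1 / A) z.2) (x + z.1 * δ) (y + z.2 * δ) δ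
      - ((Finset.range N ×ˢ Finset.range N).card : ℝ) • tau G0 x y (N * δ))‖
      ≤ N * (P * (2 * (C * δ))) := by
    rw [smul_sub, hch, hpar, ← Finset.sum_sub_distrib]
    refine (norm_sum_le _ _).trans ?_
    have : ∀ r ∈ Finset.range N, ‖∑ p ∈ Finset.range P, ∑ s ∈ Finset.range A,
        (δ ^ 2) • tau (Gs p r) (x + ((p * A + s : ℕ) : ℝ) * δ) (y + r * δ) δ
        - ∑ p ∈ Finset.range P, (edge (G0 (x + (((p + 1) * A : ℕ) : ℝ) * δ)) (y + r * δ) δ
          - edge (G0 (x + ((p * A : ℕ) : ℝ) * δ)) (y + r * δ) δ)‖ ≤ P * (2 * (C * δ)) := by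
      intro r hr
      rw [← Finset.sum_sub_distrib]
      refine (norm_sum_le _ _).trans ?_
      refine (Finset.sum_le_sum fun p hp => hstrip p (by simpa using hp) r
        (by simpa using hr)).trans ?_
      simp
    refine (Finset.sum_le_sum this).trans ?_
    simp
  rw [norm_smul, Real.norm_eq_abs, abs_of_pos hδ2] at hmain
  rw [le_div_iff₀ hδ]
  nlinarith

/-- Along a row of good squares the map is close to affine. -/
theorem row_bound (G : ℝ → ℝ → E) (x y δ D : ℝ) (hδ : 0 < δ) (hD : 0 ≤ D) (τ : E) (L : ℕ)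
    (hs : ∀ c < L, LipSq G D (x + c * δ) y δ) (j : ℕ) (hj : j < L) :
    ‖G (x + j * δ) y - G x y - (j * δ) • τ‖
      ≤ 2 * D * δ + δ * ∑ c ∈ Finset.range L, ‖tau G (x + c * δ) y δ - τ‖ := by
  have hy : y ∈ Icc y (y + δ) := ⟨le_rfl, by linarith⟩
  have happ : ∀ c < L, ‖edge (G (x + c * δ)) y δ - δ • G (x + c * δ) y‖ ≤ D * δ * δ := by
    intro c hc
    have hx : x + c * δ ∈ Icc (x + c * δ) (x + c * δ + δ) := ⟨le_rfl, by linarith⟩
    rw [← edge_const _ y δ]
    refine edge_close hδ.le ((hs c hc).contOn hx) continuousOn_const fun t ht => ?_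
    have := hs c hc _ hx t ht _ hx y hy
    have h2 : |t - y| ≤ δ := by
      rw [abs_of_nonneg (by linarith [ht.1])]; linarith [ht.2]
    simp only [sub_self, abs_zero, zero_add] at this
    exact this.trans (mul_le_mul_of_nonneg_left h2 hD)
  have h1 := happ j hj
  have h0 := happ 0 (by omega)
  simp only [Nat.cast_zero, zero_mul, add_zero] at h0
  have ht := tau_telescope G x y δ hδ j
  have h2 : ‖∑ c ∈ Finset.range j, (δ ^ 2) • (tau G (x + c * δ) y δ - τ)‖
      ≤ δ ^ 2 * ∑ c ∈ Finset.range L, ‖tau G (x + c * δ) y δ - τ‖ := by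
    refine (norm_sum_le _ _).trans ?_
    rw [Finset.mul_sum]
    refine le_trans (le_of_eq (Finset.sum_congr rfl fun c _ => ?_))
      (Finset.sum_le_sum_of_subset_of_nonneg (Finset.range_mono hj.le)
        (fun c _ _ => by positivity))
    rw [norm_smul, Real.norm_eq_abs, abs_of_pos (by positivity)]
  have h3 : δ • (G (x + j * δ) y - G x y - (j * δ) • τ)
      = ∑ c ∈ Finset.range j, (δ ^ 2) • (tau G (x + c * δ) y δ - τ)
        - (edge (G (x + j * δ)) y δ - δ • G (x + j * δ) y) + (edge (G x) y δ - δ • G x y) := by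
    simp only [smul_sub, Finset.sum_sub_distrib, ht, Finset.sum_const, Finset.card_range]
    rw [smul_smul, ← Nat.cast_smul_eq_nsmul ℝ, smul_smul,
      show δ * (j * δ) = (j : ℝ) * δ ^ 2 by ring]
    abel
  have h4 : ‖δ • (G (x + j * δ) y - G x y - (j * δ) • τ)‖
      ≤ δ ^ 2 * ∑ c ∈ Finset.range L, ‖tau G (x + c * δ) y δ - τ‖ + D * δ * δ + D * δ * δ := by
    rw [h3]
    refine (norm_add_le _ _).trans (add_le_add ((norm_sub_le _ _).trans (add_le_add h2 h1)) h0)
  rw [norm_smul, Real.norm_eq_abs, abs_of_pos hδ] at h4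
  refine le_of_mul_le_mul_left ?_ hδ
  nlinarith

end Vale.Agent.P208
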