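import Mathlib

/-! Elementary lemmas for the strip tower: lexicographic near maximisers, packing,
finite sums and variance bounds. -/

namespace Vale.Agent.P208

open Finset Set

/-- Lexicographic near maximiser. -/
theorem lex_near_max {S : Type*} [Nonempty S] (p q : S → ℝ) (B : ℝ)
    (hp1 : ∀ s, p s ≤ B) (hq0 : ∀ s, 0 ≤ q s) (hq1 : ∀ s, q s ≤ B)
    (ζ : ℝ) (hζ : 0 < ζ) :
    ∃ K : ℝ, 0 ≤ K ∧ ∀ η : ℝ, 0 < η → ∃ s, (∀ s', p s' ≤ p s + η) ∧
      ∀ s', q s' + K * p s' ≤ q s + K * p s + ζ := by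
  classical
  have hbp : BddAbove (Set.range p) := ⟨B, by rintro _ ⟨s, rfl⟩; exact hp1 s⟩
  set P := sSup (Set.range p) with hP
  have hpP : ∀ s, p s ≤ P := fun s => le_csSup hbp ⟨s, rfl⟩
  let G : ℝ → ℝ := fun K => sSup (Set.range fun s => q s + K * (p s - P))
  have hbG : ∀ K : ℝ, 0 ≤ K → BddAbove (Set.range fun s => q s + K * (p s - P)) := by
    intro K hK
    refine ⟨B, ?_⟩
    rintro _ ⟨s, rfl⟩
    have h1 := hq1 s
    have h2 : K * (p s - P) ≤ 0 := mul_nonpos_of_nonneg_of_nonpos hK (by linarith [hpP s])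
    simp only
    linarith
  have hGle : ∀ K : ℝ, 0 ≤ K → ∀ s, q s + K * (p s - P) ≤ G K := fun K hK s =>
    le_csSup (hbG K hK) ⟨s, rfl⟩
  have hGapprox : ∀ K : ℝ, ∀ e : ℝ, 0 < e → ∃ s, G K - e < q s + K * (p s - P) := by
    intro K e he
    obtain ⟨_, ⟨s, rfl⟩, hs⟩ := exists_lt_of_lt_csSup
      (Set.range_nonempty fun s => q s + K * (p s - P)) (show G K - e < G K by linarith)
    exact ⟨s, hs⟩
  have hG0 : ∀ K : ℝ, 0 ≤ K → 0 ≤ G K := by
    intro K hK
    refine le_of_forall_pos_le_add fun e he => ?_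
    obtain ⟨_, ⟨s, rfl⟩, hs⟩ := exists_lt_of_lt_csSup (Set.range_nonempty p)
      (show P - e / (K + 1) < P by
        have : 0 < e / (K + 1) := by positivity
        linarith)
    have h1 := hGle K hK s
    have h2 : K * (P - p s) ≤ e := by
      have h3 : P - p s ≤ e / (K + 1) := by linarith
      have h4 : K * (e / (K + 1)) ≤ e := by
        rw [mul_div_assoc', div_le_iff₀ (by positivity)]
        nlinarith
      calc K * (P - p s) ≤ K * (e / (K + 1)) := mul_le_mul_of_nonneg_left h3 hK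
        _ ≤ e := h4
    have := hq0 s
    nlinarith
  have hbI : BddBelow (G '' Set.Ici 0) := ⟨0, by rintro _ ⟨K, hK, rfl⟩; exact hG0 K hK⟩
  have hneI : (G '' Set.Ici 0).Nonempty := ⟨G 0, 0, Set.self_mem_Ici, rfl⟩
  set I := sInf (G '' Set.Ici 0) with hI
  obtain ⟨_, ⟨K, hK, rfl⟩, hKI⟩ := exists_lt_of_csInf_lt hneI (show I < I + ζ / 2 by linarith)
  have hK0 : (0 : ℝ) ≤ K := hK
  refine ⟨K, hK0, fun η hη => ?_⟩
  have hB0 : 0 ≤ B := by
    obtain ⟨s⟩ := ‹Nonempty S›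
    exact (hq0 s).trans (hq1 s)
  set K' := K + (B + ζ / 2) / η with hK'
  have hd : 0 ≤ (B + ζ / 2) / η := by positivity
  have hK'0 : 0 ≤ K' := by linarith
  obtain ⟨s, hs⟩ := hGapprox K' (ζ / 2) (by linarith)
  have hIK' : I ≤ G K' := csInf_le hbI ⟨K', hK'0, rfl⟩
  have hG0' := hG0 K' hK'0
  have hPs : 0 ≤ P - p s := by linarith [hpP s]
  refine ⟨s, fun s' => ?_, fun s' => ?_⟩
  · have h1 : K' * (P - p s) ≤ B + ζ / 2 := by
      have := hq1 s
      nlinarith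
    have h2 : (B + ζ / 2) / η * (P - p s) ≤ B + ζ / 2 := by
      have : (B + ζ / 2) / η * (P - p s) ≤ K' * (P - p s) :=
        mul_le_mul_of_nonneg_right (by linarith) hPs
      linarith
    have h3 : P - p s ≤ η := by
      have hpos : 0 < B + ζ / 2 := by linarith
      rw [div_mul_eq_mul_div, div_le_iff₀ hη] at h2
      exact le_of_mul_le_mul_left h2 hpos
    linarith [hpP s']
  · have h1 := hGle K hK0 s'
    have h2 : K' * (p s - P) ≤ K * (p s - P) := by nlinarith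
    nlinarith

/-- Packing in a finite dimensional space. -/
theorem packing (E : Type*) [NormedAddCommGroup E] [NormedSpace ℝ E] [FiniteDimensional ℝ E]
    (R : ℝ) : ∃ n : ℕ, 0 < n ∧ ∀ c : ℕ → E,
      ¬ ∀ i < n, ∀ i' < n, i ≠ i' → 1 / 2 ≤ ‖c i - c i'‖ ∧ ‖c i - c i'‖ ≤ R := by
  classical
  have : ProperSpace E := FiniteDimensional.proper ℝ E
  obtain ⟨t, -, htf, hcov⟩ := finite_cover_balls_of_compact
    (isCompact_closedBall (0 : E) (max R 0)) (show (0 : ℝ) < 1 / 4 by norm_num)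
  refine ⟨htf.toFinset.card + 1, Nat.succ_pos _, fun c hc => ?_⟩
  have hmem : ∀ i, i < htf.toFinset.card + 1 → ∃ x ∈ t, c i - c 0 ∈ Metric.ball x (1 / 4) := by
    intro i hi
    have : c i - c 0 ∈ Metric.closedBall (0 : E) (max R 0) := by
      rw [mem_closedBall_zero_iff]
      by_cases h0 : i = 0
      · simp [h0]
      · exact (hc i hi 0 (Nat.succ_pos _) h0).2.trans (le_max_left _ _)
    simpa using hcov this
  choose! g hg using hmem
  obtain ⟨i, hi, i', hi', hne, heq⟩ := Finset.exists_ne_map_eq_of_card_lt_of_maps_to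
    (s := Finset.range (htf.toFinset.card + 1)) (t := htf.toFinset) (f := g) (by simp)
    (fun i hi => by simpa using (hg i (by simpa using hi)).1)
  have h1 := (hg i (by simpa using hi)).2
  have h2 := (hg i' (by simpa using hi')).2
  rw [heq] at h1
  have h3 := (hc i (by simpa using hi) i' (by simpa using hi') hne).1
  rw [Metric.mem_ball, dist_eq_norm] at h1 h2
  have h4 : c i - c i' = (c i - c 0 - g i') - (c i' - c 0 - g i') := by abel
  have h5 : ‖c i - c i'‖ ≤ ‖c i - c 0 - g i'‖ + ‖c i' - c 0 - g i'‖ := by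
    rw [h4]; exact norm_sub_le _ _
  linarith

theorem sum_range_mul' {M : Type*} [AddCommMonoid M] (g : ℕ → M) (a b : ℕ) :
    ∑ c ∈ Finset.range (a * b), g c
      = ∑ i ∈ Finset.range a, ∑ j ∈ Finset.range b, g (i * b + j) := by
  induction a with
  | zero => simp
  | succ a ih => rw [Nat.succ_mul, Finset.sum_range_add, ih, Finset.sum_range_succ]

/-- Variance identity with an error in the mean. -/
theorem sum_sq_sub_le {E ι : Type*} [NormedAddCommGroup E] [InnerProductSpace ℝ E]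
    (s : Finset ι) (v : ι → E) (τ : E) (e : ℝ)
    (he : ‖∑ i ∈ s, v i - (s.card : ℝ) • τ‖ ≤ e) :
    ∑ i ∈ s, ‖v i - τ‖ ^ 2 ≤ ∑ i ∈ s, ‖v i‖ ^ 2 - s.card * ‖τ‖ ^ 2 + 2 * ‖τ‖ * e := by
  have h1 : ∀ i, ‖v i - τ‖ ^ 2 = ‖v i‖ ^ 2 - 2 * inner ℝ (v i) τ + ‖τ‖ ^ 2 := fun i =>
    norm_sub_sq_real _ _
  have h2 : inner ℝ (∑ i ∈ s, v i - (s.card : ℝ) • τ) τ
      = ∑ i ∈ s, inner ℝ (v i) τ - s.card * ‖τ‖ ^ 2 := by
    rw [inner_sub_left, sum_inner, real_inner_smul_left, real_inner_self_eq_norm_sq]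
  have h3 : |inner ℝ (∑ i ∈ s, v i - (s.card : ℝ) • τ) τ| ≤ e * ‖τ‖ :=
    (abs_real_inner_le_norm _ _).trans (mul_le_mul_of_nonneg_right he (norm_nonneg _))
  have h4 := (abs_le.mp h3).1
  simp only [h1, Finset.sum_add_distrib, Finset.sum_sub_distrib, ← Finset.mul_sum,
    Finset.sum_const, nsmul_eq_mul]
  rw [h2] at h4
  nlinarith

theorem sum_le_of_sum_sq_le {ι : Type*} (s : Finset ι) (a : ι → ℝ) (θ : ℝ) (hθ : 0 ≤ θ)
    (h : ∑ i ∈ s, a i ^ 2 ≤ s.card * θ ^ 2) : ∑ i ∈ s, a i ≤ s.card * θ := by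
  have h1 := sq_sum_le_card_mul_sum_sq (s := s) (f := a)
  have h2 : (∑ i ∈ s, a i) ^ 2 ≤ (s.card * θ) ^ 2 := by
    calc (∑ i ∈ s, a i) ^ 2 ≤ s.card * ∑ i ∈ s, a i ^ 2 := h1
      _ ≤ s.card * (s.card * θ ^ 2) := mul_le_mul_of_nonneg_left h (by positivity)
      _ = (s.card * θ) ^ 2 := by ring
  exact le_trans (le_abs_self _) (abs_le_of_sq_le_sq h2 (by positivity))

/-- Choice of a good block and a good offset. -/
theorem select_block (a b : ℕ → ℕ → ℝ) (M1 M2 n A m : ℕ) (hM1 : 0 < M1) (hM2 : 0 < M2)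
    (hA : 0 < A) (θ : ℝ)
    (ha : ∑ c ∈ Finset.range (M1 * (n * A)), ∑ r ∈ Finset.range (M2 * (n * m)), a c r
      ≤ (M1 * (n * A) : ℕ) * (M2 * (n * m) : ℕ) * θ)
    (hb : ∑ c ∈ Finset.range (M1 * (n * A)), ∑ r ∈ Finset.range (M2 * (n * m)), b c r
      ≤ (M1 * (n * A) : ℕ) * (M2 * (n * m) : ℕ) * (θ / A)) :
    ∃ B1 < M1, ∃ B2 < M2, ∃ s < A,
      ∑ i ∈ Finset.range n, ∑ r ∈ Finset.range (n * m), a (B1 * (n * A) + (i * A + s))
          (B2 * (n * m) + r)
        + ∑ c ∈ Finset.range (n * A), ∑ r ∈ Finset.range (n * m), b (B1 * (n * A) + c)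
          (B2 * (n * m) + r) ≤ 2 * n ^ 2 * m * θ := by
  have hAr : (0 : ℝ) < A := by exact_mod_cast hA
  let blk : (ℕ → ℕ → ℝ) → ℕ → ℕ → ℝ := fun f B1 B2 =>
    ∑ c ∈ Finset.range (n * A), ∑ r ∈ Finset.range (n * m), f (B1 * (n * A) + c)
      (B2 * (n * m) + r)
  have hsplit : ∀ f : ℕ → ℕ → ℝ,
      ∑ c ∈ Finset.range (M1 * (n * A)), ∑ r ∈ Finset.range (M2 * (n * m)), f c r
        = ∑ B ∈ Finset.range M1 ×ˢ Finset.range M2, blk f B.1 B.2 := by
    intro f
    rw [Finset.sum_product, sum_range_mul']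
    refine Finset.sum_congr rfl fun B1 _ => ?_
    simp only [blk]
    rw [Finset.sum_comm (s := Finset.range M2)]
    refine Finset.sum_congr rfl fun c _ => ?_
    rw [sum_range_mul']
  have hne : (Finset.range M1 ×ˢ Finset.range M2).Nonempty :=
    ⟨(0, 0), by simp [hM1, hM2]⟩
  obtain ⟨B, hB, hBle⟩ := Finset.exists_le_of_sum_le hne
    (f := fun B => blk a B.1 B.2 + A * blk b B.1 B.2)
    (g := fun _ => (2 * n ^ 2 * m * θ * A : ℝ)) (by
      rw [Finset.sum_add_distrib, ← Finset.mul_sum, ← hsplit, ← hsplit]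
      simp only [Finset.sum_const, Finset.card_product, Finset.card_range, nsmul_eq_mul]
      have hb' := mul_le_mul_of_nonneg_left hb hAr.le
      push_cast at ha hb' ⊢
      have e1 : (A : ℝ) * (M1 * (n * A) * (M2 * (n * m)) * (θ / A))
          = M1 * (n * A) * (M2 * (n * m)) * θ := by field_simp
      rw [e1] at hb'
      nlinarith)
  rw [Finset.mem_product, Finset.mem_range, Finset.mem_range] at hB
  have hcol : blk a B.1 B.2 = ∑ s ∈ Finset.range A, ∑ i ∈ Finset.range n,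
      ∑ r ∈ Finset.range (n * m), a (B.1 * (n * A) + (i * A + s)) (B.2 * (n * m) + r) := by
    simp only [blk]
    rw [sum_range_mul', Finset.sum_comm]
  obtain ⟨s, hs, hsle⟩ := Finset.exists_le_of_sum_le (s := Finset.range A) ⟨0, by simp [hA]⟩
    (f := fun s => ∑ i ∈ Finset.range n, ∑ r ∈ Finset.range (n * m),
      a (B.1 * (n * A) + (i * A + s)) (B.2 * (n * m) + r) + blk b B.1 B.2)
    (g := fun _ => (2 * n ^ 2 * m * θ : ℝ)) (by
      rw [Finset.sum_add_distrib, ← hcol]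
      simp only [Finset.sum_const, Finset.card_range, nsmul_eq_mul]
      linarith)
  exact ⟨B.1, hB.1, B.2, hB.2, s, by simpa using hs, hsle⟩

/-- Covering by codes. -/
theorem cover_of_code {α β : Type*} [PseudoMetricSpace α] (S : Set α) (K : Finset β)
    (R : α → β → Prop) (ρ : ℝ) (h1 : ∀ p ∈ S, ∃ k ∈ K, R p k)
    (h2 : ∀ k, ∀ p ∈ S, ∀ p' ∈ S, R p k → R p' k → dist p p' < ρ) :
    ∃ T : Finset α, (T : Set α) ⊆ S ∧ T.card ≤ K.card ∧ S ⊆ ⋃ t ∈ T, Metric.ball t ρ := by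
  classical
  let K' := K.filter fun k => ∃ p ∈ S, R p k
  have hK' : ∀ k : K', ∃ p ∈ S, R p k := fun k => (Finset.mem_filter.mp k.2).2
  choose g hgS hgR using hK'
  refine ⟨Finset.univ.image g, ?_, ?_, ?_⟩
  · intro p hp
    simp only [Finset.coe_image, Finset.coe_univ, Set.image_univ, Set.mem_range] at hp
    obtain ⟨k, rfl⟩ := hp
    exact hgS k
  · calc (Finset.univ.image g).card ≤ (Finset.univ : Finset K').card := Finset.card_image_le
      _ = K'.card := by simp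
      _ ≤ K.card := Finset.card_filter_le _ _
  · intro p hp
    obtain ⟨k, hk, hR⟩ := h1 p hp
    have hk' : k ∈ K' := Finset.mem_filter.mpr ⟨hk, p, hp, hR⟩
    simp only [Set.mem_iUnion]
    refine ⟨g ⟨k, hk'⟩, Finset.mem_image_of_mem _ (Finset.mem_univ _), ?_⟩
    exact h2 k p hp _ (hgS _) hR (hgR ⟨k, hk'⟩)

end Vale.Agent.P208
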