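import Vale.Agent.P208.Avg

/-! The analytic core: an abstract system of sheets with crossing strips admits no
bi-Lipschitz map to a finite dimensional space. -/

namespace Vale.Agent.P208

open Set

variable {E : Type*} [NormedAddCommGroup E] [InnerProductSpace ℝ E]

/-- One block: almost affine behaviour on all crosses contradicts packing. -/
theorem block_contra [CompleteSpace E] (Fc : ℕ → ℝ → ℝ → E) (F0 : ℝ → ℝ → E) (D h : ℝ)
    (hD : 0 ≤ D) (hh : 0 < h) (n A m s : ℕ) (hm : 0 < m) (hmD : 32 * D ≤ m) (hs : s < A)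
    (X Y : ℝ) (τ1 τ2 : E)
    (hV : ∀ i < n, ∀ r < n * m,
      LipSq (Fc i) D (X + ((i * A + s : ℕ) : ℝ) * (h / m)) (Y + r * (h / m)) (h / m))
    (hH : ∀ i < n, ∀ c < n * A,
      LipSq (Fc i) D (X + c * (h / m)) (Y + ((i * m : ℕ) : ℝ) * (h / m)) (h / m))
    (hsV : ∀ i < n, ∑ r ∈ Finset.range (n * m), ‖tau (fun v u => Fc i u v) (Y + r * (h / m))
      (X + ((i * A + s : ℕ) : ℝ) * (h / m)) (h / m) - τ2‖ ≤ m / 16)
    (hsH : ∀ i < n, ∑ c ∈ Finset.range (n * A), ‖tau (Fc i) (X + c * (h / m))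
      (Y + ((i * m : ℕ) : ℝ) * (h / m)) (h / m) - τ1‖ ≤ m / 16)
    (hsep : ∀ i < n, ∀ i' < n, i ≠ i' →
      h ≤ ‖Fc i (X + ((i * A + s : ℕ) : ℝ) * (h / m)) (Y + ((i' * m : ℕ) : ℝ) * (h / m))
        - Fc i' (X + ((i * A + s : ℕ) : ℝ) * (h / m)) (Y + ((i' * m : ℕ) : ℝ) * (h / m))‖ ∧
      ‖Fc i (X + ((i * A + s : ℕ) : ℝ) * (h / m)) (Y + ((i' * m : ℕ) : ℝ) * (h / m))
        - F0 (X + ((i * A + s : ℕ) : ℝ) * (h / m)) (Y + ((i' * m : ℕ) : ℝ) * (h / m))‖ ≤ D * h ∧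
      ‖Fc i' (X + ((i * A + s : ℕ) : ℝ) * (h / m)) (Y + ((i' * m : ℕ) : ℝ) * (h / m))
        - F0 (X + ((i * A + s : ℕ) : ℝ) * (h / m)) (Y + ((i' * m : ℕ) : ℝ) * (h / m))‖ ≤ D * h) :
    ∃ c : ℕ → E, ∀ i < n, ∀ i' < n, i ≠ i' →
      1 / 2 ≤ ‖c i - c i'‖ ∧ ‖c i - c i'‖ ≤ 2 * D + 1 := by
  have hmr : (0 : ℝ) < m := by exact_mod_cast hm
  set δ := h / m with hδ
  have hδ0 : 0 < δ := by positivity
  have hδm : δ * m = h := by rw [hδ]; field_simp
  let a : ℕ → ℝ := fun i => ((i * A + s : ℕ) : ℝ) * δ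
  let b : ℕ → ℝ := fun i => ((i * m : ℕ) : ℝ) * δ
  let w : ℕ → ℕ → ℕ → E := fun k i i' => Fc k (X + a i) (Y + b i') - a i • τ1 - b i' • τ2
  have hb8 : 2 * D * δ + δ * (m / 16) ≤ h / 8 := by
    have : 2 * D * δ ≤ h / 16 := by nlinarith
    nlinarith
  have hcol : ∀ i < n, ∀ i' < n,
      ‖Fc i (X + a i) (Y + b i') - Fc i (X + a i) Y - b i' • τ2‖ ≤ h / 8 := by
    intro i hi i' hi'
    have hlt : i' * m < n * m := Nat.mul_lt_mul_of_pos_right hi' hm
    have := row_bound (fun v u => Fc i u v) Y (X + a i) δ D hδ0 hD τ2 (n * m)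
      (fun r hr => (hV i hi r hr).swap) (i' * m) hlt
    refine this.trans (le_trans ?_ hb8)
    have := mul_le_mul_of_nonneg_left (hsV i hi) hδ0.le
    linarith
  have hrow : ∀ i < n, ∀ i' < n,
      ‖Fc i' (X + a i) (Y + b i') - Fc i' X (Y + b i') - a i • τ1‖ ≤ h / 8 := by
    intro i hi i' hi'
    have hlt : i * A + s < n * A := by
      have : (i + 1) * A ≤ n * A := Nat.mul_le_mul_right A hi
      have e : (i + 1) * A = i * A + A := by ring
      omega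
    have := row_bound (Fc i') X (Y + b i') δ D hδ0 hD τ1 (n * A)
      (fun c hc => hH i' hi' c hc) (i * A + s) hlt
    refine this.trans (le_trans ?_ hb8)
    have := mul_le_mul_of_nonneg_left (hsH i' hi') hδ0.le
    linarith
  have hw1 : ∀ i < n, ∀ i' < n, ‖w i i i' - w i i i‖ ≤ h / 4 := by
    intro i hi i' hi'
    have e : w i i i' - w i i i
        = (Fc i (X + a i) (Y + b i') - Fc i (X + a i) Y - b i' • τ2)
          - (Fc i (X + a i) (Y + b i) - Fc i (X + a i) Y - b i • τ2) := by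
      simp only [w]; abel
    rw [e]
    linarith [norm_sub_le (Fc i (X + a i) (Y + b i') - Fc i (X + a i) Y - b i' • τ2)
      (Fc i (X + a i) (Y + b i) - Fc i (X + a i) Y - b i • τ2), hcol i hi i' hi', hcol i hi i hi]
  have hw2 : ∀ i < n, ∀ i' < n, ‖w i' i i' - w i' i' i'‖ ≤ h / 4 := by
    intro i hi i' hi'
    have e : w i' i i' - w i' i' i'
        = (Fc i' (X + a i) (Y + b i') - Fc i' X (Y + b i') - a i • τ1)
          - (Fc i' (X + a i') (Y + b i') - Fc i' X (Y + b i') - a i' • τ1) := by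
      simp only [w]; abel
    rw [e]
    linarith [norm_sub_le (Fc i' (X + a i) (Y + b i') - Fc i' X (Y + b i') - a i • τ1)
      (Fc i' (X + a i') (Y + b i') - Fc i' X (Y + b i') - a i' • τ1), hrow i hi i' hi',
      hrow i' hi' i' hi']
  refine ⟨fun i => h⁻¹ • w i i i, fun i hi i' hi' hne => ?_⟩
  obtain ⟨k1, k2, k3⟩ := hsep i hi i' hi' hne
  have e1 : w i i i' - w i' i i' = Fc i (X + a i) (Y + b i') - Fc i' (X + a i) (Y + b i') := by
    simp only [w]; abel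
  have k4 : h ≤ ‖w i i i' - w i' i i'‖ := by rw [e1]; exact k1
  have k5 : ‖w i i i' - w i' i i'‖ ≤ 2 * (D * h) := by
    rw [e1]
    have e2 : Fc i (X + a i) (Y + b i') - Fc i' (X + a i) (Y + b i')
        = (Fc i (X + a i) (Y + b i') - F0 (X + a i) (Y + b i'))
          - (Fc i' (X + a i) (Y + b i') - F0 (X + a i) (Y + b i')) := by abel
    rw [e2]
    exact (norm_sub_le _ _).trans (by linarith [k2, k3])
  have l1 := hw1 i hi i' hi'
  have l2 := hw2 i hi i' hi'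
  have e3 : w i i i' - w i' i i' = (w i i i - w i' i' i') + (w i i i' - w i i i)
      - (w i' i i' - w i' i' i') := by abel
  have e4 : w i i i - w i' i' i' = (w i i i' - w i' i i') - (w i i i' - w i i i)
      + (w i' i i' - w i' i' i') := by abel
  have m1 : h / 2 ≤ ‖w i i i - w i' i' i'‖ := by
    have t1 := norm_sub_le ((w i i i - w i' i' i') + (w i i i' - w i i i))
      (w i' i i' - w i' i' i')
    have t2 := norm_add_le (w i i i - w i' i' i') (w i i i' - w i i i)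
    rw [← e3] at t1
    linarith
  have m2 : ‖w i i i - w i' i' i'‖ ≤ 2 * (D * h) + h / 2 := by
    have t1 := norm_add_le ((w i i i' - w i' i i') - (w i i i' - w i i i))
      (w i' i i' - w i' i' i')
    have t2 := norm_sub_le (w i i i' - w i' i i') (w i i i' - w i i i)
    rw [← e4] at t1
    linarith
  simp only
  rw [← smul_sub, norm_smul, norm_inv, Real.norm_eq_abs, abs_of_pos hh]
  constructor
  · rw [le_inv_mul_iff₀ hh]; linarith
  · rw [inv_mul_le_iff₀ hh]; nlinarith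

set_option maxHeartbeats 800000 in
theorem core [FiniteDimensional ℝ E] {Sh : Type*} (F : Sh → ℝ → ℝ → E)
    (St : Sh → ℝ → ℝ → ℝ → Prop) (D : ℝ) (hD : 1 ≤ D)
    (hne : ∃ σ x y l, St σ x y l)
    (hpos : ∀ σ x y l, St σ x y l → 0 < l)
    (hlip : ∀ σ x y l, St σ x y l → LipSq (F σ) D x y l)
    (hchild : ∀ σ x y l, St σ x y l → ∀ n α m : ℕ, 0 < n → 0 < α → 0 < m → ∀ ε : ℝ, 0 < ε →
      ∃ (h : ℝ) (M : ℕ) (ch : ℕ → Sh), 0 < h ∧ h ≤ ε ∧ l = M * n * α * h ∧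
        ∀ c < M * n * (α * m), ∀ r < M * n * (α * m),
          St (ch (c / (α * m) % n)) (x + c * (h / m)) (y + r * (h / m)) (h / m) ∧
          St (ch (r / m % n)) (x + c * (h / m)) (y + r * (h / m)) (h / m) ∧
          ∀ u ∈ Icc (x + c * (h / m)) (x + c * (h / m) + h / m),
            ∀ v ∈ Icc (y + r * (h / m)) (y + r * (h / m) + h / m),
              ‖F (ch (c / (α * m) % n)) u v - F σ u v‖ ≤ D * h ∧
              ‖F (ch (r / m % n)) u v - F σ u v‖ ≤ D * h ∧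
              (c / (α * m) % n ≠ r / m % n →
                h ≤ ‖F (ch (c / (α * m) % n)) u v - F (ch (r / m % n)) u v‖)) :
    False := by
  classical
  have : CompleteSpace E := FiniteDimensional.complete ℝ E
  have hD0 : 0 ≤ D := by linarith
  obtain ⟨n, hn, hpack⟩ := packing E (2 * D + 1)
  obtain ⟨m, hmD⟩ := exists_nat_ge (32 * D)
  have hmr : (0 : ℝ) < m := by linarith
  have hm : 0 < m := by exact_mod_cast hmr
  have hnr : (0 : ℝ) < n := by exact_mod_cast hn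
  set θ : ℝ := 1 / (32 * n ^ 2) with hθ
  have hθ0 : 0 < θ := by positivity
  let S := {z : Sh × ℝ × ℝ × ℝ // St z.1 z.2.1 z.2.2.1 z.2.2.2}
  have : Nonempty S := by
    obtain ⟨σ, x, y, l, h⟩ := hne
    exact ⟨⟨(σ, x, y, l), h⟩⟩
  let p : S → ℝ := fun z => ‖tau (F z.1.1) z.1.2.1 z.1.2.2.1 z.1.2.2.2‖ ^ 2
  let q : S → ℝ := fun z => ‖tau (fun v u => F z.1.1 u v) z.1.2.2.1 z.1.2.1 z.1.2.2.2‖ ^ 2
  have hp1 : ∀ z, p z ≤ D ^ 2 := fun z =>
    pow_le_pow_left₀ (norm_nonneg _) (norm_tau_le (hpos _ _ _ _ z.2) (hlip _ _ _ _ z.2)) 2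
  have hq1 : ∀ z, q z ≤ D ^ 2 := fun z =>
    pow_le_pow_left₀ (norm_nonneg _) (norm_tau_le (hpos _ _ _ _ z.2) (hlip _ _ _ _ z.2).swap) 2
  obtain ⟨K, hK, hlex⟩ := lex_near_max p q (D ^ 2) hp1 (fun z => by positivity) hq1
    (θ ^ 2 / 3) (by positivity)
  obtain ⟨α, hα⟩ := exists_nat_ge (12 * K * D ^ 2 / θ ^ 2 + 1)
  have hα1 : 0 ≤ 12 * K * D ^ 2 / θ ^ 2 := by positivity
  have hαr : (0 : ℝ) < α := by linarith
  have hα0 : 0 < α := by exact_mod_cast hαr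
  have hαK : 4 * K * D ^ 2 / α ≤ θ ^ 2 / 3 := by
    rw [div_le_iff₀ hαr]
    have : 12 * K * D ^ 2 / θ ^ 2 ≤ α := by linarith
    rw [div_le_iff₀ (by positivity)] at this
    linarith
  set A : ℕ := α * m with hA
  have hA0 : 0 < A := Nat.mul_pos hα0 hm
  have hAr : (1 : ℝ) ≤ A := by exact_mod_cast hA0
  obtain ⟨⟨⟨σ, x, y, l⟩, hst⟩, hI, hII⟩ := hlex ((θ / A) ^ 2 / 2) (by positivity)
  simp only at hst
  have hl := hpos _ _ _ _ hst
  obtain ⟨h, M, ch, hh0, hhε, hlM, hsq⟩ := hchild σ x y l hst n α m hn hα0 hm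
    (l * (θ / A) ^ 2 / (12 * D ^ 2)) (by positivity)
  set δ : ℝ := h / m with hδ
  have hδ0 : 0 < δ := by positivity
  set N : ℕ := M * n * A with hN
  have hNδ : (N : ℝ) * δ = l := by
    rw [hlM, hN, hA, hδ]; push_cast; field_simp
  have hM0 : 0 < M := by
    rcases Nat.eq_zero_or_pos M with h0 | h0
    · rw [h0] at hlM; simp at hlM; linarith
    · exact h0
  have hN0 : 0 < N := Nat.mul_pos (Nat.mul_pos hM0 hn) hA0
  have hNr : (0 : ℝ) < N := by exact_mod_cast hN0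
  set τ1 : E := tau (F σ) x y l with hτ1
  set τ2 : E := tau (fun v u => F σ u v) y x l with hτ2
  have hτ1D : ‖τ1‖ ≤ D := norm_tau_le hl (hlip _ _ _ _ hst)
  have hτ2D : ‖τ2‖ ≤ D := norm_tau_le hl (hlip _ _ _ _ hst).swap
  have hlip0 : LipSq (F σ) D x y (N * δ) := by rw [hNδ]; exact hlip _ _ _ _ hst
  set Z := Finset.range N ×ˢ Finset.range N with hZ
  have hZc : (Z.card : ℝ) = N * N := by simp [hZ]
  -- smallness of h
  have hsmall : 4 * D ^ 2 * h / l ≤ (θ / A) ^ 2 / 3 := by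
    rw [le_div_iff₀ (by positivity)] at hhε
    rw [div_le_iff₀ hl]
    linarith
  have hθA : (θ / A) ^ 2 ≤ θ ^ 2 :=
    pow_le_pow_left₀ (by positivity) (div_le_self hθ0.le hAr) 2
  have herr : 2 * D * (2 * ((1 : ℕ) : ℝ) * N * (D * h) / δ) = N * N * (4 * D ^ 2 * h / l) := by
    rw [← hNδ]; push_cast; field_simp; ring
  have herr2 : 2 * D * (2 * ((M * n : ℕ) : ℝ) * N * (D * h) / δ)
      = N * N * (4 * D ^ 2 / α) := by
    rw [hN, hA, hδ]; push_cast; field_simp; ring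
  -- horizontal family
  let tH : ℕ × ℕ → E := fun z => tau (F (ch (z.2 / m % n))) (x + z.1 * δ) (y + z.2 * δ) δ
  let tV1 : ℕ × ℕ → E := fun z => tau (F (ch (z.1 / A % n))) (x + z.1 * δ) (y + z.2 * δ) δ
  let tV2 : ℕ × ℕ → E := fun z =>
    tau (fun v u => F (ch (z.1 / A % n)) u v) (y + z.2 * δ) (x + z.1 * δ) δ
  have mH := mean_tau (F σ) (fun _ r => F (ch (r / m % n))) x y δ D (D * h) hδ0 1 N N
    (by simp) hN0 hlip0 (fun c hc r hr => hlip _ _ _ _ (hsq c hc r hr).2.1)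
    (fun c hc r hr u hu v hv => ((hsq c hc r hr).2.2 u hu v hv).2.1)
  have mV1 := mean_tau (F σ) (fun p _ => F (ch (p % n))) x y δ D (D * h) hδ0 (M * n) A N
    hN hA0 hlip0 (fun c hc r hr => hlip _ _ _ _ (hsq c hc r hr).1)
    (fun c hc r hr u hu v hv => ((hsq c hc r hr).2.2 u hu v hv).1)
  have mV2 := mean_tau (fun v u => F σ u v) (fun _ c v u => F (ch (c / A % n)) u v) y x δ D
    (D * h) hδ0 1 N N (by simp) hN0 hlip0.swap
    (fun r hr c hc => (hlip _ _ _ _ (hsq c hc r hr).1).swap)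
    (fun r hr c hc v hv u hu => ((hsq c hc r hr).2.2 u hu v hv).1)
  rw [hNδ] at mH mV1 mV2
  have eswap : ∑ z ∈ Finset.range N ×ˢ Finset.range N,
      tau (fun v u => F (ch (z.2 / A % n)) u v) (y + z.1 * δ) (x + z.2 * δ) δ
      = ∑ z ∈ Z, tV2 z := by
    rw [hZ, Finset.sum_product, Finset.sum_product_right]
  rw [eswap] at mV2
  have vH := sum_sq_sub_le Z tH τ1 _ mH
  have vV1 := sum_sq_sub_le Z tV1 τ1 _ mV1
  have vV2 := sum_sq_sub_le Z tV2 τ2 _ mV2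
  have hmemZ : ∀ z ∈ Z, z.1 < N ∧ z.2 < N := fun z hz => by simpa [hZ] using hz
  have sH : ∑ z ∈ Z, ‖tH z‖ ^ 2 ≤ Z.card * (‖τ1‖ ^ 2 + (θ / A) ^ 2 / 2) := by
    rw [← nsmul_eq_mul]
    refine Finset.sum_le_card_nsmul _ _ _ fun z hz => ?_
    exact hI ⟨(ch (z.2 / m % n), x + z.1 * δ, y + z.2 * δ, δ),
      (hsq z.1 (hmemZ z hz).1 z.2 (hmemZ z hz).2).2.1⟩
  have sV : ∑ z ∈ Z, (‖tV2 z‖ ^ 2 + K * ‖tV1 z‖ ^ 2)
      ≤ Z.card * (‖τ2‖ ^ 2 + K * ‖τ1‖ ^ 2 + θ ^ 2 / 3) := by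
    rw [← nsmul_eq_mul]
    refine Finset.sum_le_card_nsmul _ _ _ fun z hz => ?_
    exact hII ⟨(ch (z.1 / A % n), x + z.1 * δ, y + z.2 * δ, δ),
      (hsq z.1 (hmemZ z hz).1 z.2 (hmemZ z hz).2).1⟩
  have hNN : (0 : ℝ) ≤ N * N := by positivity
  have fH : ∑ z ∈ Z, ‖tH z - τ1‖ ^ 2 ≤ Z.card * (θ / A) ^ 2 := by
    have e0 : 0 ≤ 2 * ((1 : ℕ) : ℝ) * N * (D * h) / δ := by positivity
    have e1 : 2 * ‖τ1‖ * (2 * ((1 : ℕ) : ℝ) * N * (D * h) / δ)
        ≤ 2 * D * (2 * ((1 : ℕ) : ℝ) * N * (D * h) / δ) := by gcongr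
    rw [herr] at e1
    have e2 := mul_le_mul_of_nonneg_left hsmall hNN
    rw [hZc] at vH sH ⊢
    have e3 : 0 ≤ (N * N : ℝ) * (θ / A) ^ 2 := by positivity
    linarith only [vH, sH, e1, e2, e3]
  have fV : ∑ z ∈ Z, ‖tV2 z - τ2‖ ^ 2 ≤ Z.card * θ ^ 2 := by
    have e1 : 2 * ‖τ2‖ * (2 * ((1 : ℕ) : ℝ) * N * (D * h) / δ)
        ≤ 2 * D * (2 * ((1 : ℕ) : ℝ) * N * (D * h) / δ) := by gcongr
    have e1' : 2 * ‖τ1‖ * (2 * ((M * n : ℕ) : ℝ) * N * (D * h) / δ)
        ≤ 2 * D * (2 * ((M * n : ℕ) : ℝ) * N * (D * h) / δ) := by gcongr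
    rw [herr] at e1
    rw [herr2] at e1'
    have e2 := mul_le_mul_of_nonneg_left hsmall hNN
    have e3 := mul_le_mul_of_nonneg_left hθA hNN
    have e4 := mul_le_mul_of_nonneg_left hαK hNN
    have e5 : 0 ≤ ∑ z ∈ Z, ‖tV1 z - τ1‖ ^ 2 := Finset.sum_nonneg fun _ _ => by positivity
    have e6 : 0 ≤ ∑ z ∈ Z, ‖tV1 z‖ ^ 2 - Z.card * ‖τ1‖ ^ 2 + N * N * (4 * D ^ 2 / α) := by
      linarith only [e5, vV1, e1']
    have e7 := mul_nonneg hK e6
    rw [Finset.sum_add_distrib, ← Finset.mul_sum] at sV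
    have e8 : K * (N * N * (4 * D ^ 2 / α)) = N * N * (4 * K * D ^ 2 / α) := by ring
    rw [hZc] at vV2 sV e7 ⊢
    rw [mul_add, mul_sub, e8] at e7
    linarith only [vV2, sV, e1, e2, e3, e4, e7]
  have gH := sum_le_of_sum_sq_le Z (fun z => ‖tH z - τ1‖) (θ / A) (by positivity) fH
  have gV := sum_le_of_sum_sq_le Z (fun z => ‖tV2 z - τ2‖) θ hθ0.le fV
  have hN1 : M * (n * A) = N := by rw [hN]; ring
  have hN2 : M * α * (n * m) = N := by rw [hN, hA]; ring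
  rw [hZc, hZ, Finset.sum_product] at gH gV
  obtain ⟨B1, hB1, B2, hB2, s, hs, hsel⟩ := select_block (fun c r => ‖tV2 (c, r) - τ2‖)
    (fun c r => ‖tH (c, r) - τ1‖) M (M * α) n A m hM0 (Nat.mul_pos hM0 hα0) hA0 θ
    (by rw [hN1, hN2]; exact gV) (by rw [hN1, hN2]; exact gH)
  have hθm : 2 * (n : ℝ) ^ 2 * m * θ = m / 16 := by rw [hθ]; field_simp; ring
  rw [hθm] at hsel
  have hcN : ∀ c < n * A, B1 * (n * A) + c < N := by
    intro c hc
    have h1 : (B1 + 1) * (n * A) ≤ M * (n * A) := Nat.mul_le_mul_right _ hB1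
    have h2 : (B1 + 1) * (n * A) = B1 * (n * A) + n * A := by ring
    omega
  have hrN : ∀ r < n * m, B2 * (n * m) + r < N := by
    intro r hr
    have h1 : (B2 + 1) * (n * m) ≤ M * α * (n * m) := Nat.mul_le_mul_right _ hB2
    have h2 : (B2 + 1) * (n * m) = B2 * (n * m) + n * m := by ring
    omega
  have hiA : ∀ i < n, i * A + s < n * A := by
    intro i hi
    have : (i + 1) * A ≤ n * A := Nat.mul_le_mul_right A hi
    have e : (i + 1) * A = i * A + A := by ring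
    omega
  have him : ∀ i < n, i * m < n * m := fun i hi => Nat.mul_lt_mul_of_pos_right hi hm
  have htc : ∀ i < n, (B1 * (n * A) + (i * A + s)) / A % n = i := by
    intro i hi
    have e : B1 * (n * A) + (i * A + s) = A * (B1 * n + i) + s := by ring
    rw [e, Nat.mul_add_div hA0, Nat.div_eq_of_lt hs, add_zero, mul_comm, Nat.mul_add_mod,
      Nat.mod_eq_of_lt hi]
  have htr : ∀ i < n, (B2 * (n * m) + i * m) / m % n = i := by
    intro i hi
    have e : B2 * (n * m) + i * m = m * (B2 * n + i) := by ring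
    rw [e, Nat.mul_div_cancel_left _ hm, mul_comm, Nat.mul_add_mod, Nat.mod_eq_of_lt hi]
  have eX : ∀ c : ℕ, x + ((B1 * (n * A) + c : ℕ) : ℝ) * δ
      = x + ((B1 * (n * A) : ℕ) : ℝ) * δ + c * δ := by
    intro c; rw [Nat.cast_add]; ring
  have eY : ∀ r : ℕ, y + ((B2 * (n * m) + r : ℕ) : ℝ) * δ
      = y + ((B2 * (n * m) : ℕ) : ℝ) * δ + r * δ := by
    intro c; rw [Nat.cast_add]; ring
  have n1 : 0 ≤ ∑ i ∈ Finset.range n, ∑ r ∈ Finset.range (n * m),
      ‖tV2 (B1 * (n * A) + (i * A + s), B2 * (n * m) + r) - τ2‖ :=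
    Finset.sum_nonneg fun _ _ => Finset.sum_nonneg fun _ _ => norm_nonneg _
  have n2 : 0 ≤ ∑ c ∈ Finset.range (n * A), ∑ r ∈ Finset.range (n * m),
      ‖tH (B1 * (n * A) + c, B2 * (n * m) + r) - τ1‖ :=
    Finset.sum_nonneg fun _ _ => Finset.sum_nonneg fun _ _ => norm_nonneg _
  obtain ⟨c, hc⟩ := block_contra (fun i => F (ch i)) (F σ) D h hD0 hh0 n A m s hm hmD hs
    (x + ((B1 * (n * A) : ℕ) : ℝ) * δ) (y + ((B2 * (n * m) : ℕ) : ℝ) * δ) τ1 τ2
    (fun i hi r hr => by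
      have := hlip _ _ _ _ (hsq _ (hcN _ (hiA i hi)) _ (hrN r hr)).1
      rw [htc i hi, eX, eY] at this
      exact this)
    (fun i hi c hc => by
      have := hlip _ _ _ _ (hsq _ (hcN c hc) _ (hrN _ (him i hi))).2.1
      rw [htr i hi, eX, eY] at this
      exact this)
    (fun i hi => by
      have k1 : ∑ r ∈ Finset.range (n * m),
          ‖tV2 (B1 * (n * A) + (i * A + s), B2 * (n * m) + r) - τ2‖
          ≤ ∑ i ∈ Finset.range n, ∑ r ∈ Finset.range (n * m),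
            ‖tV2 (B1 * (n * A) + (i * A + s), B2 * (n * m) + r) - τ2‖ :=
        Finset.single_le_sum (f := fun i => ∑ r ∈ Finset.range (n * m),
            ‖tV2 (B1 * (n * A) + (i * A + s), B2 * (n * m) + r) - τ2‖)
          (fun _ _ => Finset.sum_nonneg fun _ _ => norm_nonneg _) (Finset.mem_range.mpr hi)
      refine le_trans (le_of_eq (Finset.sum_congr rfl fun r _ => ?_)) (k1.trans (by linarith only [hsel, n2]))
      simp only [tV2]
      rw [htc i hi, eX, eY])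
    (fun i hi => by
      have k1 : ∑ c ∈ Finset.range (n * A), ‖tH (B1 * (n * A) + c, B2 * (n * m) + i * m) - τ1‖
          ≤ ∑ c ∈ Finset.range (n * A), ∑ r ∈ Finset.range (n * m),
            ‖tH (B1 * (n * A) + c, B2 * (n * m) + r) - τ1‖ :=
        Finset.sum_le_sum fun c _ => Finset.single_le_sum
          (f := fun r => ‖tH (B1 * (n * A) + c, B2 * (n * m) + r) - τ1‖)
          (fun _ _ => norm_nonneg _) (Finset.mem_range.mpr (him i hi))
      refine le_trans (le_of_eq (Finset.sum_congr rfl fun c _ => ?_)) (k1.trans (by linarith only [hsel, n1]))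
      simp only [tH]
      rw [htr i hi, eX, eY])
    (fun i hi i' hi' hii => by
      have := (hsq _ (hcN _ (hiA i hi)) _ (hrN _ (him i' hi'))).2.2 _
        ⟨le_rfl, by linarith only [hδ0]⟩ _ ⟨le_rfl, by linarith only [hδ0]⟩
      rw [htc i hi, htr i' hi', eX, eY] at this
      exact ⟨this.2.2 hii, this.1, this.2.1⟩)
  exact hpack c hc

end Vale.Agent.P208
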