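import Vale.Agent.P208.Final

/-! An explicit doubling constant for the strip tower. -/

namespace Vale.Agent.P208

open Set

theorem strip_near' {w L u : ℝ} (hw : 0 < w) (h1 : L ≤ u) (h2 : u ≤ L + 2 * w) {k : ℤ}
    (hk : u ∈ Icc (k * w) ((k + 1) * w)) : k - ⌊L / w⌋ ∈ Finset.Icc (-1 : ℤ) 2 := by
  have f1 := Int.floor_le (L / w)
  have f2 := Int.lt_floor_add_one (L / w)
  rw [le_div_iff₀ hw] at f1
  rw [div_lt_iff₀ hw] at f2
  obtain ⟨b1, b2⟩ := hk
  rw [Finset.mem_Icc]
  constructor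
  · have : ((⌊L / w⌋ : ℝ) - 1) * w ≤ k * w := by nlinarith
    have := le_of_mul_le_mul_right this hw
    have : ((⌊L / w⌋ - 1 : ℤ) : ℝ) ≤ k := by push_cast; linarith
    have := Int.cast_le.mp this
    omega
  · have : k * w < ((⌊L / w⌋ : ℝ) + 3) * w := by nlinarith
    have := lt_of_mul_lt_mul_right this hw.le
    have : (k : ℝ) < ((⌊L / w⌋ + 3 : ℤ) : ℝ) := by push_cast; linarith
    have := Int.cast_lt.mp this
    omega

theorem floor_near' {t r : ℝ} (hr : 0 < r) (ht : |t| ≤ r) :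
    ⌊t * 10 / r⌋ ∈ Finset.Icc (-10 : ℤ) 10 := by
  obtain ⟨a1, a2⟩ := abs_le.mp ht
  rw [Finset.mem_Icc]
  constructor
  · rw [Int.le_floor, le_div_iff₀ hr]; push_cast; linarith
  · have : t * 10 / r ≤ 10 := by rw [div_le_iff₀ hr]; linarith
    have h2 := Int.floor_le (t * 10 / r)
    have : ((⌊t * 10 / r⌋ : ℤ) : ℝ) ≤ ((10 : ℤ) : ℝ) := by push_cast; linarith
    exact Int.cast_le.mp this

theorem cell_bounds {u z r : ℝ} (hr : 0 < r) :
    z + ⌊(u - z) * 10 / r⌋ * (r / 10) ≤ u ∧ u < z + ⌊(u - z) * 10 / r⌋ * (r / 10) + r / 10 := by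
  have f1 := Int.floor_le ((u - z) * 10 / r)
  have f2 := Int.lt_floor_add_one ((u - z) * 10 / r)
  rw [le_div_iff₀ hr] at f1
  rw [div_lt_iff₀ hr] at f2
  constructor <;> nlinarith

theorem tower_doubling_explicit : ∀ z ∈ tower, ∀ r : ℝ, 0 < r → ∃ T : Finset L2,
    (T : Set L2) ⊆ tower ∧ T.card ≤ 5292 ∧
      tower ∩ Metric.closedBall z r ⊆ ⋃ t ∈ T, Metric.ball t (r / 2) := by
  classical
  let I : Finset ℤ := Finset.Icc (-10) 10
  let I' : Finset ℤ := Finset.Icc (-1) 2
  let K : Finset (ℤ × ℤ × ℕ × ℤ) := I ×ˢ I ×ˢ Finset.range 3 ×ˢ I'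
  have hK : K.card = 5292 := by simp [K, I, I']
  intro z _ r hr
  have hex : ∃ j, hh j ≤ 2 * r := by
    obtain ⟨J, hJ⟩ := hh_small (show 0 < 2 * r by linarith)
    exact ⟨J, hJ J le_rfl⟩
  let j0 := Nat.find hex
  have hj0 : hh j0 ≤ 2 * r := Nat.find_spec hex
  have hj0' : ∀ j < j0, 2 * r < hh j := fun j hj => not_le.mp (Nat.find_min hex hj)
  let val : ℤ → ℤ → ℕ → ℤ → ℤ := fun k1 k2 t a =>
    if t = 0 then 0 else if t = 1 then
      (⌊(z 0 + k1 * (r / 10)) / (al j0 * hh j0)⌋ + a) % (nn j0 : ℤ) + 1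
      else (⌊(z 1 + k2 * (r / 10)) / hh j0⌋ + a) % (nn j0 : ℤ) + 1
  let R : L2 → ℤ × ℤ × ℕ × ℤ → Prop := fun p k => ∃ u v c J, Rep p u v c J ∧
    ⌊(u - z 0) * 10 / r⌋ = k.1 ∧ ⌊(v - z 1) * 10 / r⌋ = k.2.1 ∧
      (hh j0 ≤ r / 16 ∨ (c j0 : ℤ) = val k.1 k.2.1 k.2.2.1 k.2.2.2)
  obtain ⟨T, hT1, hT2, hT3⟩ := cover_of_code (tower ∩ Metric.closedBall z r) K R (r / 2)
    (by
      rintro p ⟨⟨u, v, c, J, hrep⟩, hp⟩
      rw [Metric.mem_closedBall, dist_eq_norm] at hp
      have hu : |u - z 0| ≤ r := by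
        have := abs_apply_le (p - z) 0
        rw [lp.coeFn_sub, Pi.sub_apply, hrep.2.2, pt_zero, ← hrep.2.2] at this
        linarith
      have hv : |v - z 1| ≤ r := by
        have := abs_apply_le (p - z) 1
        rw [lp.coeFn_sub, Pi.sub_apply, hrep.2.2, pt_one, ← hrep.2.2] at this
        linarith
      have h0I : (0 : ℤ) ∈ I' := by simp [I']
      have main : ∃ t ∈ Finset.range 3, ∃ a ∈ I', hh j0 ≤ r / 16 ∨
          (c j0 : ℤ) = val ⌊(u - z 0) * 10 / r⌋ ⌊(v - z 1) * 10 / r⌋ t a := by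
        by_cases hs : hh j0 ≤ r / 16
        · exact ⟨0, by simp, 0, h0I, Or.inl hs⟩
        · push Not at hs
          have hp0 := hh_pos j0
          rcases hrep.1 j0 with h0 | ⟨k, hk, hk1 | hk2⟩
          · exact ⟨0, by simp, 0, h0I, Or.inr (by simp [val, h0])⟩
          · have hal : (1 : ℝ) ≤ al j0 := by
              have : 1 ≤ al j0 := by unfold al; omega
              exact_mod_cast this
            obtain ⟨c1, c2⟩ := cell_bounds (u := u) (z := z 0) hr
            have hw : hh j0 ≤ al j0 * hh j0 := le_mul_of_one_le_left hp0.le hal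
            refine ⟨1, by simp, _, strip_near' (by linarith only [hw, hp0]) c1
              (by linarith only [hw, hs, c2, hr]) hk1, Or.inr ?_⟩
            simp [val, hk]
          · obtain ⟨c1, c2⟩ := cell_bounds (u := v) (z := z 1) hr
            refine ⟨2, by simp, _, strip_near' hp0 c1 (by linarith only [hs, c2, hr]) hk2, Or.inr ?_⟩
            simp [val, hk]
      obtain ⟨t, ht, a, ha, hta⟩ := main
      refine ⟨(⌊(u - z 0) * 10 / r⌋, ⌊(v - z 1) * 10 / r⌋, t, a), ?_, u, v, c, J, hrep, rfl, rfl,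
        hta⟩
      simp only [K, Finset.mem_product]
      exact ⟨floor_near' hr hu, floor_near' hr hv, ht, ha⟩)
    (by
      rintro k p ⟨-, hp⟩ p' ⟨-, hp'⟩ ⟨u, v, c, J, hrep, a1, a2, a3⟩
        ⟨u', v', c', J', hrep', b1, b2, b3⟩
      have hd : ‖p - p'‖ ≤ 2 * r := by
        rw [← dist_eq_norm]
        have := dist_triangle_right p p' z
        rw [Metric.mem_closedBall] at hp hp'
        linarith
      have e1 : |u - u'| < r / 10 := by
        obtain ⟨c1, c2⟩ := cell_bounds (u := u) (z := z 0) hr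
        obtain ⟨c3, c4⟩ := cell_bounds (u := u') (z := z 0) hr
        rw [a1] at c1 c2
        rw [b1] at c3 c4
        rw [abs_lt]; constructor <;> linarith
      have e2 : |v - v'| < r / 10 := by
        obtain ⟨c1, c2⟩ := cell_bounds (u := v) (z := z 1) hr
        obtain ⟨c3, c4⟩ := cell_bounds (u := v') (z := z 1) hr
        rw [a2] at c1 c2
        rw [b2] at c3 c4
        rw [abs_lt]; constructor <;> linarith
      have e3 := dist_le_sum hrep hrep'
      have e4 : ∑ j ∈ Finset.range (max J J'), (if c j = c' j then 0 else 2 * hh j)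
          ≤ ∑ j ∈ Finset.range (max J J'), ((if j = j0 then r / 8 else 0)
            + if j ≤ j0 then 0 else 2 * hh j) := by
        refine Finset.sum_le_sum fun j _ => ?_
        have hpj := hh_pos j
        rcases lt_trichotomy j j0 with hlt | heq | hgt
        · have : c j = c' j := by
            by_contra hne
            linarith [hh_le_dist hrep hrep' hne, hj0' j hlt]
          rw [if_pos this, if_neg hlt.ne, if_pos hlt.le, add_zero]
        · rw [if_pos heq, if_pos heq.le, add_zero]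
          split_ifs with hcc
          · linarith
          · rw [heq] at hcc ⊢
            rcases a3 with a3 | a3
            · linarith
            · rcases b3 with b3 | b3
              · linarith
              · exact absurd (by exact_mod_cast a3.trans b3.symm) hcc
        · rw [if_neg hgt.ne', if_neg (not_le.mpr hgt), zero_add]
          split_ifs
          · linarith
          · exact le_rfl
      rw [Finset.sum_add_distrib] at e4
      have e5 := tail_bound j0 (max J J')
      have e6 : ∑ j ∈ Finset.range (max J J'), (if j = j0 then r / 8 else 0) ≤ r / 8 := by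
        rw [Finset.sum_ite_eq']
        split_ifs
        · exact le_rfl
        · linarith
      rw [dist_eq_norm]
      linarith)
  exact ⟨T, hT1.trans Set.inter_subset_left, hK ▸ hT2, hT3⟩

theorem tower_not_embed (k : ℕ) (f : tower → EuclideanSpace ℝ (Fin k)) (a D : ℝ) (ha : 0 < a) :
    ¬ ∀ x y : tower, a * dist x y ≤ dist (f x) (f y) ∧ dist (f x) (f y) ≤ D * a * dist x y := by
  classical
  intro hf
  let g : L2 → EuclideanSpace ℝ (Fin k) := fun p => if h : p ∈ tower then a⁻¹ • f ⟨p, h⟩ else 0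
  have hg : ∀ p (hp : p ∈ tower) p' (hp' : p' ∈ tower),
      ‖g p - g p'‖ = a⁻¹ * dist (f ⟨p, hp⟩) (f ⟨p', hp'⟩) := by
    intro p hp p' hp'
    simp only [g, dif_pos hp, dif_pos hp']
    rw [← smul_sub, norm_smul, norm_inv, Real.norm_eq_abs, abs_of_pos ha, dist_eq_norm]
  refine tower_no_embedding g (max D 1) (le_max_right _ _) (fun p hp p' hp' => ?_)
    (fun p hp p' hp' => ?_)
  · have := (hf ⟨p, hp⟩ ⟨p', hp'⟩).1
    rw [Subtype.dist_eq, dist_eq_norm] at this
    rw [hg p hp p' hp', le_inv_mul_iff₀ ha]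
    exact this
  · have := (hf ⟨p, hp⟩ ⟨p', hp'⟩).2
    rw [Subtype.dist_eq, dist_eq_norm p p'] at this
    rw [hg p hp p' hp', inv_mul_le_iff₀ ha]
    have h2 : D * a * ‖p - p'‖ ≤ max D 1 * a * ‖p - p'‖ := by gcongr; exact le_max_left _ _
    linarith

end Vale.Agent.P208
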