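import Vale.Agent.P208.Space

/-! The strip tower admits no bi-Lipschitz map into a finite dimensional Euclidean space. -/

namespace Vale.Agent.P208

open Set

theorem align (q : ℚ) (d j : ℕ) (hd : 0 < d) (hj : q.den * d ≤ j + 64) :
    ∃ a : ℤ, (q : ℝ) = a * (d * hh j) := by
  obtain ⟨t, ht⟩ := Nat.dvd_factorial (Nat.mul_pos q.den_pos hd) hj
  have hf : (0 : ℝ) < (j + 64).factorial := by exact_mod_cast Nat.factorial_pos _
  have ht' : ((j + 64).factorial : ℝ) = q.den * d * t := by rw [ht]; push_cast; ring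
  refine ⟨q.num * t, ?_⟩
  unfold hh
  clear ht
  generalize ((j + 64).factorial : ℝ) = f at hf ht' ⊢
  have hden : (0 : ℝ) < q.den := by exact_mod_cast q.den_pos
  have hq : (q : ℝ) = q.num / q.den := by exact_mod_cast (Rat.num_div_den q).symm
  have hd' : (0 : ℝ) < d := by exact_mod_cast hd
  have ht0 : (t : ℝ) ≠ 0 := by
    intro h0
    rw [h0, mul_zero] at ht'
    linarith
  rw [hq, ht']
  push_cast
  field_simp

theorem strip_mem {x w δ u : ℝ} {a : ℤ} {n A c : ℕ} (hA : 0 < A) (hδ : 0 < δ) (hw : w = A * δ)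
    (hx : x = a * (n * w)) (hu : u ∈ Icc (x + c * δ) (x + c * δ + δ)) :
    u ∈ Icc (((a * n + (c / A : ℕ) : ℤ) : ℝ) * w) ((((a * n + (c / A : ℕ) : ℤ) : ℝ) + 1) * w) := by
  have h1 : c / A * A ≤ c := Nat.div_mul_le_self c A
  have h2 : c + 1 ≤ (c / A + 1) * A := by
    have := Nat.lt_div_mul_add (a := c) hA
    have e : (c / A + 1) * A = c / A * A + A := by ring
    omega
  generalize c / A = k at h1 h2 ⊢
  have h1' : (k : ℝ) * A ≤ c := by exact_mod_cast h1
  have h2' : (c : ℝ) + 1 ≤ (k + 1) * A := by exact_mod_cast h2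
  obtain ⟨u1, u2⟩ := hu
  have e1 := mul_le_mul_of_nonneg_right h1' hδ.le
  have e2 := mul_le_mul_of_nonneg_right h2' hδ.le
  push_cast
  subst hw
  constructor
  · nlinarith
  · nlinarith

theorem type_eq (a : ℤ) (n k : ℕ) :
    (((k % n + 1 : ℕ)) : ℤ) = (a * n + (k : ℕ)) % (n : ℤ) + 1 := by
  push_cast
  rw [add_comm (a * n), Int.add_mul_emod_self_right]

theorem pt_update (u v : ℝ) (c : ℕ → ℕ) {J j : ℕ} (hc : ∀ j, J ≤ j → c j = 0) (hj : J ≤ j)
    (i : ℕ) : pt u v (Function.update c j i) (j + 1) = pt u v c J + vec j i := by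
  rw [pt_extend u v c hc hj]
  unfold pt
  rw [Finset.sum_range_succ, Function.update_self, ← add_assoc]
  congr 2
  refine Finset.sum_congr rfl fun j' hj' => ?_
  rw [Function.update_of_ne (by simpa using (Finset.mem_range.mp hj').ne)]

theorem tower_no_embedding {E : Type*} [NormedAddCommGroup E] [InnerProductSpace ℝ E]
    [FiniteDimensional ℝ E] (g : L2 → E) (D : ℝ) (hD : 1 ≤ D)
    (hlow : ∀ p ∈ tower, ∀ p' ∈ tower, ‖p - p'‖ ≤ ‖g p - g p'‖)
    (hup : ∀ p ∈ tower, ∀ p' ∈ tower, ‖g p - g p'‖ ≤ D * ‖p - p'‖) : False := by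
  classical
  have hD0 : 0 ≤ D := by linarith
  let Sh := {z : (ℕ → ℕ) × ℕ // ∀ j, z.2 ≤ j → z.1 j = 0}
  let F : Sh → ℝ → ℝ → E := fun σ u v => g (pt u v σ.1.1 σ.1.2)
  let St : Sh → ℝ → ℝ → ℝ → Prop := fun σ x y l =>
    (∃ qx qy ql : ℚ, x = qx ∧ y = qy ∧ l = ql) ∧ 0 < l ∧
      ∀ u ∈ Icc x (x + l), ∀ v ∈ Icc y (y + l), ∀ j, allowed j (σ.1.1 j) u v
  have hrep : ∀ (σ : Sh) (u v : ℝ), (∀ j, allowed j (σ.1.1 j) u v) →
      Rep (pt u v σ.1.1 σ.1.2) u v σ.1.1 σ.1.2 := fun σ u v h => ⟨h, σ.2, rfl⟩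
  have hmem : ∀ (σ : Sh) (u v : ℝ), (∀ j, allowed j (σ.1.1 j) u v) →
      pt u v σ.1.1 σ.1.2 ∈ tower := fun σ u v h => ⟨u, v, _, _, hrep σ u v h⟩
  refine core F St D hD ?_ (fun σ x y l h => h.2.1) ?_ ?_
  · refine ⟨⟨(fun _ => 0, 0), fun _ _ => rfl⟩, 0, 0, 1, ⟨0, 0, 1, by simp, by simp, by simp⟩,
      one_pos, fun u _ v _ j => Or.inl rfl⟩
  · intro σ x y l h u hu v hv u' hu' v' hv'
    have a1 := h.2.2 u hu v hv
    have a2 := h.2.2 u' hu' v' hv'
    refine (hup _ (hmem σ u v a1) _ (hmem σ u' v' a2)).trans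
      (mul_le_mul_of_nonneg_left ?_ hD0)
    have := dist_le_sum (hrep σ u v a1) (hrep σ u' v' a2)
    simpa using this
  · rintro σ x y l ⟨⟨qx, qy, ql, rfl, rfl, rfl⟩, hl, hall⟩ n α m hn hα hm ε hε
    obtain ⟨J0, hJ0⟩ := hh_small hε
    set t := σ.1.2 + J0 + qx.den * (n * α) + qy.den * n + ql.den * (n * α) with ht
    set j := Nat.pair (Nat.pair n (α - 1)) t with hj
    have htj : t ≤ j := Nat.right_le_pair _ _
    have hnn : nn j = n := by simp [nn, hj]
    have hal : al j = α := by simp only [al, hj, Nat.unpair_pair]; omega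
    have hJj : σ.1.2 ≤ j := by omega
    have hnα : 0 < n * α := Nat.mul_pos hn hα
    obtain ⟨ax, hax⟩ := align qx (n * α) j hnα (by omega)
    obtain ⟨ay, hay⟩ := align qy n j hn (by omega)
    obtain ⟨aM, haM⟩ := align ql (n * α) j hnα (by omega)
    have hp := hh_pos j
    set h := hh j with hh_def
    have hmr : (0 : ℝ) < m := by exact_mod_cast hm
    have hnαr : (0 : ℝ) < ((n * α : ℕ) : ℝ) := by exact_mod_cast hnα
    have haM0 : 0 ≤ aM := by
      by_contra hneg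
      push Not at hneg
      have : (aM : ℝ) < 0 := by exact_mod_cast hneg
      have h2 : (aM : ℝ) * (((n * α : ℕ) : ℝ) * h) < 0 :=
        mul_neg_of_neg_of_pos this (mul_pos hnαr hp)
      linarith
    obtain ⟨M, rfl⟩ := Int.eq_ofNat_of_zero_le haM0
    let ch : ℕ → Sh := fun i => ⟨(Function.update σ.1.1 j (i + 1), j + 1), fun j' hj' => by
      have hj'' : j + 1 ≤ j' := hj'
      simp only
      rw [Function.update_of_ne (by omega)]
      exact σ.2 j' (by omega)⟩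
    have hδ : 0 < h / m := div_pos hp hmr
    have hlM : (ql : ℝ) = M * n * α * h := by rw [haM]; push_cast; ring
    have hNδ : ((M * n * (α * m) : ℕ) : ℝ) * (h / m) = ql := by
      rw [hlM]; push_cast; field_simp
    have hsub : ∀ (x : ℝ) (c : ℕ), c < M * n * (α * m) →
        Icc (x + c * (h / m)) (x + c * (h / m) + h / m) ⊆ Icc x (x + ql) := by
      intro x c hc
      have hc' : ((c + 1 : ℕ) : ℝ) ≤ ((M * n * (α * m) : ℕ) : ℝ) := by exact_mod_cast hc
      have h1 := mul_le_mul_of_nonneg_right hc' hδ.le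
      rw [hNδ] at h1
      push_cast at h1
      have h0 : (0 : ℝ) ≤ c * (h / m) := mul_nonneg (Nat.cast_nonneg c) hδ.le
      exact Icc_subset_Icc (by linarith only [h0]) (by linarith only [h1])
    have hallch : ∀ i u v, (∀ j', allowed j' (σ.1.1 j') u v) → allowed j (i + 1) u v →
        ∀ j', allowed j' ((ch i).1.1 j') u v := by
      intro i u v h1 h2 j'
      simp only [ch]
      by_cases hjj : j' = j
      · rw [hjj, Function.update_self]; exact h2
      · rw [Function.update_of_ne hjj]; exact h1 j'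
    have hrat : ∃ qh : ℚ, h / m = qh := by
      refine ⟨1 / ((j + 64).factorial : ℚ) / m, ?_⟩
      rw [hh_def]
      unfold hh
      rw [Rat.cast_div, Rat.cast_div, Rat.cast_natCast, Rat.cast_natCast, Rat.cast_one]
    obtain ⟨qh, hqh⟩ := hrat
    have hclose : ∀ i u v, (∀ j', allowed j' (σ.1.1 j') u v) → allowed j (i + 1) u v →
        ‖F (ch i) u v - F σ u v‖ ≤ D * h := by
      intro i u v h1 h2
      refine (hup _ (hmem _ u v (hallch i u v h1 h2)) _ (hmem σ u v h1)).trans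
        (mul_le_mul_of_nonneg_left ?_ hD0)
      simp only [ch]
      rw [pt_update u v _ σ.2 hJj, add_sub_cancel_left]
      exact norm_vec_le _ _
    refine ⟨h, M, ch, hp, hJ0 j (by omega), hlM, fun c hc r hr => ?_⟩
    have aV : ∀ u ∈ Icc ((qx : ℝ) + c * (h / m)) (qx + c * (h / m) + h / m), ∀ v,
        allowed j (c / (α * m) % n + 1) u v := by
      intro u hu v
      refine Or.inr ⟨ax * n + (c / (α * m) : ℕ), by rw [hnn]; exact type_eq _ _ _, Or.inl ?_⟩
      rw [hal]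
      refine strip_mem (Nat.mul_pos hα hm) hδ ?_ ?_ hu
      · rw [← hh_def]; push_cast; field_simp
      · rw [hax, ← hh_def]; push_cast; ring
    have aH : ∀ v ∈ Icc ((qy : ℝ) + r * (h / m)) (qy + r * (h / m) + h / m), ∀ u,
        allowed j (r / m % n + 1) u v := by
      intro v hv u
      refine Or.inr ⟨ay * n + (r / m : ℕ), by rw [hnn]; exact type_eq _ _ _, Or.inr ?_⟩
      refine strip_mem hm hδ ?_ ?_ hv
      · rw [← hh_def]; field_simp
      · rw [hay]
    have hq3 : ∃ q1 q2 q3 : ℚ, (qx : ℝ) + c * (h / m) = q1 ∧ (qy : ℝ) + r * (h / m) = q2 ∧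
        h / m = q3 :=
      ⟨qx + c * qh, qy + r * qh, qh, by rw [hqh]; push_cast; ring, by rw [hqh]; push_cast; ring,
        hqh⟩
    refine ⟨⟨hq3, hδ, fun u hu v hv => ?_⟩, ⟨hq3, hδ, fun u hu v hv => ?_⟩, fun u hu v hv => ?_⟩
    · exact hallch _ u v (hall u (hsub _ c hc hu) v (hsub _ r hr hv)) (aV u hu v)
    · exact hallch _ u v (hall u (hsub _ c hc hu) v (hsub _ r hr hv)) (aH v hv u)
    · have h0 := hall u (hsub _ c hc hu) v (hsub _ r hr hv)
      refine ⟨hclose _ u v h0 (aV u hu v), hclose _ u v h0 (aH v hv u), fun hne => ?_⟩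
      have r1 := hallch _ u v h0 (aV u hu v)
      have r2 := hallch _ u v h0 (aH v hv u)
      refine le_trans ?_ (hlow _ (hmem _ u v r1) _ (hmem _ u v r2))
      refine hh_le_dist (hrep _ u v r1) (hrep _ u v r2) (j := j) ?_
      simp only [ch, Function.update_self]
      omega

theorem lang_plaut : ∃ X : Set L2,
    (∃ lam : ℕ, ∀ x ∈ X, ∀ r : ℝ, 0 < r → ∃ T : Finset L2,
      (T : Set L2) ⊆ X ∧ T.card ≤ lam ∧
        X ∩ Metric.closedBall x r ⊆ ⋃ t ∈ T, Metric.ball t (r / 2)) ∧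
    ∀ (k : ℕ) (f : X → EuclideanSpace ℝ (Fin k)) (a D : ℝ), 0 < a →
      ¬ ∀ x y : X, a * dist x y ≤ dist (f x) (f y) ∧ dist (f x) (f y) ≤ D * a * dist x y := by
  classical
  refine ⟨tower, tower_doubling, fun k f a D ha hf => ?_⟩
  let g : L2 → EuclideanSpace ℝ (Fin k) := fun p => if h : p ∈ tower then a⁻¹ • f ⟨p, h⟩ else 0
  have hg : ∀ p (hp : p ∈ tower) p' (hp' : p' ∈ tower),
      ‖g p - g p'‖ = a⁻¹ * dist (f ⟨p, hp⟩) (f ⟨p', hp'⟩) := by
    intro p hp p' hp'
    simp only [g, dif_pos hp, dif_pos hp']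
    rw [← smul_sub, norm_smul, norm_inv, Real.norm_eq_abs, abs_of_pos ha, dist_eq_norm]
  refine tower_no_embedding g (max D 1) (le_max_right _ _) (fun p hp p' hp' => ?_)
    (fun p hp p' hp' => ?_)
  · have := (hf ⟨p, hp⟩ ⟨p', hp'⟩).1
    rw [Subtype.dist_eq, dist_eq_norm] at this
    rw [hg p hp p' hp', le_inv_mul_iff₀ ha]
    exact this
  · have := (hf ⟨p, hp⟩ ⟨p', hp'⟩).2
    rw [Subtype.dist_eq, dist_eq_norm p p'] at this
    rw [hg p hp p' hp', inv_mul_le_iff₀ ha]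
    have h2 : D * a * ‖p - p'‖ ≤ max D 1 * a * ‖p - p'‖ := by gcongr; exact le_max_left _ _
    linarith

end Vale.Agent.P208
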