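import Vale.Agent.P208.Core

/-! The strip tower in the Hilbert space of square summable sequences. -/

namespace Vale.Agent.P208

open Set

abbrev L2 := lp (fun _ : ℕ => ℝ) 2

noncomputable def ee (k : ℕ) : L2 := lp.single 2 k (1 : ℝ)

theorem ee_apply (k k' : ℕ) : ee k k' = if k' = k then 1 else 0 := by
  unfold ee
  rw [lp.single_apply, Pi.single_apply]

theorem norm_ee (k : ℕ) : ‖ee k‖ = 1 := by
  unfold ee
  rw [lp.norm_single (by norm_num)]
  simp

theorem abs_apply_le (p : L2) (k : ℕ) : |p k| ≤ ‖p‖ := by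
  have := lp.norm_apply_le_norm (E := fun _ : ℕ => ℝ) (p := 2) (by norm_num) p k
  simpa using this

/-- Height of level `j`. -/
noncomputable def hh (j : ℕ) : ℝ := 1 / ((j + 64).factorial : ℝ)

/-- Number of types at level `j`. -/
def nn (j : ℕ) : ℕ := (Nat.unpair (Nat.unpair j).1).1

/-- Aspect of the vertical strips at level `j`. -/
def al (j : ℕ) : ℕ := (Nat.unpair (Nat.unpair j).1).2 + 1

def idx (j i : ℕ) : ℕ := Nat.pair j i + 2

noncomputable def vec (j i : ℕ) : L2 := if i = 0 then 0 else hh j • ee (idx j i)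

def allowed (j i : ℕ) (u v : ℝ) : Prop :=
  i = 0 ∨ ∃ k : ℤ, (i : ℤ) = k % (nn j : ℤ) + 1 ∧
    (u ∈ Icc (k * (al j * hh j)) ((k + 1) * (al j * hh j)) ∨ v ∈ Icc (k * hh j) ((k + 1) * hh j))

noncomputable def pt (u v : ℝ) (c : ℕ → ℕ) (J : ℕ) : L2 :=
  u • ee 0 + v • ee 1 + ∑ j ∈ Finset.range J, vec j (c j)

def Rep (p : L2) (u v : ℝ) (c : ℕ → ℕ) (J : ℕ) : Prop :=
  (∀ j, allowed j (c j) u v) ∧ (∀ j, J ≤ j → c j = 0) ∧ p = pt u v c J

/-- The strip tower. -/
def tower : Set L2 := {p | ∃ u v c J, Rep p u v c J}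

theorem hh_pos (j : ℕ) : 0 < hh j := by
  unfold hh
  have h2 : (0 : ℝ) < (j + 64).factorial := by exact_mod_cast Nat.factorial_pos _
  exact one_div_pos.mpr h2

theorem hh_succ (j : ℕ) : 33 * hh (j + 1) ≤ hh j := by
  unfold hh
  have h1 : ((j + 1 + 64).factorial : ℝ) = (j + 65) * ((j + 64).factorial : ℝ) := by
    rw [show j + 1 + 64 = (j + 64) + 1 by ring, Nat.factorial_succ]
    push_cast; ring
  have h2 : (0 : ℝ) < (j + 64).factorial := by exact_mod_cast Nat.factorial_pos _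
  rw [h1]
  clear h1
  generalize ((j + 64).factorial : ℝ) = f at h2 ⊢
  have : (0 : ℝ) ≤ j := by positivity
  rw [mul_one_div, div_le_div_iff₀ (by positivity) h2]
  nlinarith

theorem hh_le (j : ℕ) : hh j ≤ 1 / (j + 1) := by
  unfold hh
  have h1 : j + 64 ≤ (j + 64).factorial := Nat.self_le_factorial _
  have h2 : ((j + 64 : ℕ) : ℝ) ≤ (j + 64).factorial := by exact_mod_cast h1
  clear h1
  generalize ((j + 64).factorial : ℝ) = f at h2 ⊢
  push_cast at h2
  exact one_div_le_one_div_of_le (by positivity) (by linarith)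

theorem hh_small {ε : ℝ} (hε : 0 < ε) : ∃ J : ℕ, ∀ j, J ≤ j → hh j ≤ ε := by
  obtain ⟨J, hJ⟩ := exists_nat_one_div_lt hε
  refine ⟨J, fun j hj => (hh_le j).trans (le_trans ?_ hJ.le)⟩
  have : (J : ℝ) ≤ j := by exact_mod_cast hj
  exact one_div_le_one_div_of_le (by positivity) (by linarith)

theorem idx_inj {j i j' i' : ℕ} (h : idx j i = idx j' i') : j = j' ∧ i = i' := by
  unfold idx at h
  exact Nat.pair_eq_pair.mp (by omega)

theorem norm_vec_le (j i : ℕ) : ‖vec j i‖ ≤ hh j := by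
  unfold vec
  split_ifs
  · simpa using (hh_pos j).le
  · rw [norm_smul, norm_ee, Real.norm_eq_abs, abs_of_pos (hh_pos j), mul_one]

theorem vec_apply (j i k : ℕ) : vec j i k = if i ≠ 0 ∧ k = idx j i then hh j else 0 := by
  unfold vec
  by_cases hi : i = 0
  · simp [hi]
  · simp [hi, ee_apply]

theorem pt_apply (u v : ℝ) (c : ℕ → ℕ) (J k : ℕ) :
    pt u v c J k = u * ee 0 k + v * ee 1 k + ∑ j ∈ Finset.range J, vec j (c j) k := by
  unfold pt
  simp only [lp.coeFn_add, lp.coeFn_smul, lp.coeFn_sum, Pi.add_apply, Pi.smul_apply,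
    Finset.sum_apply, smul_eq_mul]

theorem pt_zero (u v : ℝ) (c : ℕ → ℕ) (J : ℕ) : pt u v c J 0 = u := by
  rw [pt_apply]
  simp [ee_apply, vec_apply, idx]

theorem pt_one (u v : ℝ) (c : ℕ → ℕ) (J : ℕ) : pt u v c J 1 = v := by
  rw [pt_apply]
  simp [ee_apply, vec_apply, idx]

theorem pt_idx (u v : ℝ) (c : ℕ → ℕ) (J : ℕ) (hc : ∀ j, J ≤ j → c j = 0) (j i : ℕ) (hi : i ≠ 0) :
    pt u v c J (idx j i) = if c j = i then hh j else 0 := by
  rw [pt_apply]
  have h0 : ee 0 (idx j i) = 0 := by simp [ee_apply, idx]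
  have h1 : ee 1 (idx j i) = 0 := by simp [ee_apply, idx]
  rw [h0, h1, mul_zero, mul_zero, zero_add, zero_add]
  have h2 : ∀ j', j' ≠ j → vec j' (c j') (idx j i) = 0 := by
    intro j' hj'
    rw [vec_apply, if_neg]
    rintro ⟨-, h⟩
    exact hj' (idx_inj h).1.symm
  have h3 : vec j (c j) (idx j i) = if c j = i then hh j else 0 := by
    rw [vec_apply]
    by_cases h : c j = i
    · simp [h, hi]
    · rw [if_neg h, if_neg]
      rintro ⟨-, h'⟩
      exact h (idx_inj h').2.symm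
  rw [Finset.sum_eq_single j (fun j' _ hj' => h2 j' hj') ?_, h3]
  intro hj
  have : c j = 0 := hc j (by simpa using hj)
  rw [h3, this, if_neg (Ne.symm hi)]

theorem pt_extend (u v : ℝ) (c : ℕ → ℕ) {J J' : ℕ} (hc : ∀ j, J ≤ j → c j = 0) (h : J ≤ J') :
    pt u v c J = pt u v c J' := by
  unfold pt
  congr 1
  refine Finset.sum_subset (Finset.range_mono h) fun j _ hj => ?_
  rw [hc j (by simpa using hj)]
  simp [vec]

theorem hh_le_dist {p p' : L2} {u v u' v' : ℝ} {c c' : ℕ → ℕ} {J J' : ℕ}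
    (h : Rep p u v c J) (h' : Rep p' u' v' c' J') {j : ℕ} (hj : c j ≠ c' j) :
    hh j ≤ ‖p - p'‖ := by
  have key : ∀ i, i ≠ 0 → |(if c j = i then hh j else 0) - (if c' j = i then hh j else 0)|
      ≤ ‖p - p'‖ := by
    intro i hi
    have := abs_apply_le (p - p') (idx j i)
    rwa [lp.coeFn_sub, Pi.sub_apply, h.2.2, h'.2.2, pt_idx _ _ _ _ h.2.1 _ _ hi,
      pt_idx _ _ _ _ h'.2.1 _ _ hi, ← h.2.2, ← h'.2.2] at this
  by_cases h0 : c j = 0
  · have := key (c' j) (fun h1 => hj (by rw [h0, h1]))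
    rw [if_neg hj, if_pos rfl, zero_sub, abs_neg, abs_of_pos (hh_pos j)] at this
    exact this
  · have := key (c j) h0
    rw [if_pos rfl, if_neg (Ne.symm hj), sub_zero, abs_of_pos (hh_pos j)] at this
    exact this

theorem dist_le_sum {p p' : L2} {u v u' v' : ℝ} {c c' : ℕ → ℕ} {J J' : ℕ}
    (h : Rep p u v c J) (h' : Rep p' u' v' c' J') :
    ‖p - p'‖ ≤ |u - u'| + |v - v'|
      + ∑ j ∈ Finset.range (max J J'), if c j = c' j then 0 else 2 * hh j := by
  rw [h.2.2, h'.2.2, pt_extend u v c h.2.1 (le_max_left J J'),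
    pt_extend u' v' c' h'.2.1 (le_max_right J J')]
  have e : pt u v c (max J J') - pt u' v' c' (max J J')
      = (u - u') • ee 0 + (v - v') • ee 1
        + ∑ j ∈ Finset.range (max J J'), (vec j (c j) - vec j (c' j)) := by
    unfold pt
    rw [Finset.sum_sub_distrib, sub_smul, sub_smul]
    abel
  rw [e]
  refine (norm_add_le _ _).trans (add_le_add ((norm_add_le _ _).trans (le_of_eq ?_)) ?_)
  · rw [norm_smul, norm_smul, norm_ee, norm_ee]; simp
  · refine (norm_sum_le _ _).trans (Finset.sum_le_sum fun j _ => ?_)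
    split_ifs with hj
    · simp [hj]
    · linarith [norm_sub_le (vec j (c j)) (vec j (c' j)), norm_vec_le j (c j), norm_vec_le j (c' j)]

theorem tail_bound (j0 J : ℕ) :
    ∑ j ∈ Finset.range J, (if j ≤ j0 then 0 else 2 * hh j) ≤ hh j0 / 16 := by
  have key : ∀ T : ℕ, ∑ j ∈ Finset.range (j0 + 1 + T), (if j ≤ j0 then 0 else 2 * hh j)
      ≤ hh j0 / 16 - hh (j0 + T) / 16 := by
    intro T
    induction T with
    | zero =>
      rw [Finset.sum_eq_zero fun j hj => if_pos (by simpa [Nat.lt_succ_iff] using hj)]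
      simp
    | succ T ih =>
      rw [← add_assoc, Finset.sum_range_succ, if_neg (by omega)]
      have h1 := hh_succ (j0 + T)
      have e1 : j0 + 1 + T = j0 + T + 1 := by ring
      rw [e1, ← add_assoc]
      rw [e1] at ih
      linarith
  refine le_trans (Finset.sum_le_sum_of_subset_of_nonneg (Finset.range_mono (by omega))
    fun j _ _ => ?_) ((key J).trans ?_)
  · split_ifs
    · exact le_rfl
    · linarith [hh_pos j]
  · linarith [hh_pos (j0 + J)]

theorem strip_near {w z u r : ℝ} (hw : 0 < w) (hr : r ≤ 16 * w) (hu : |u - z| ≤ r) {k : ℤ}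
    (hk : u ∈ Icc (k * w) ((k + 1) * w)) : k - ⌊z / w⌋ ∈ Finset.Icc (-18 : ℤ) 18 := by
  have h1 := Int.floor_le (z / w)
  have h2 := Int.lt_floor_add_one (z / w)
  rw [le_div_iff₀ hw] at h1
  rw [div_lt_iff₀ hw] at h2
  obtain ⟨a1, a2⟩ := abs_le.mp hu
  obtain ⟨b1, b2⟩ := hk
  rw [Finset.mem_Icc]
  constructor
  · have : ((⌊z / w⌋ : ℝ) - 18) * w ≤ k * w := by nlinarith
    have := le_of_mul_le_mul_right this hw
    have : ((⌊z / w⌋ - 18 : ℤ) : ℝ) ≤ k := by push_cast; linarith
    have := Int.cast_le.mp this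
    omega
  · have : k * w ≤ ((⌊z / w⌋ : ℝ) + 18) * w := by nlinarith
    have := le_of_mul_le_mul_right this hw
    have : (k : ℝ) ≤ ((⌊z / w⌋ + 18 : ℤ) : ℝ) := by push_cast; linarith
    have := Int.cast_le.mp this
    omega

theorem floor_near {t r : ℝ} (hr : 0 < r) (ht : |t| ≤ r) :
    ⌊t * 16 / r⌋ ∈ Finset.Icc (-18 : ℤ) 18 := by
  obtain ⟨a1, a2⟩ := abs_le.mp ht
  rw [Finset.mem_Icc]
  constructor
  · rw [Int.le_floor, le_div_iff₀ hr]; push_cast; linarith
  · have : t * 16 / r ≤ 16 := by rw [div_le_iff₀ hr]; linarith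
    have h2 := Int.floor_le (t * 16 / r)
    have : ((⌊t * 16 / r⌋ : ℤ) : ℝ) ≤ ((18 : ℤ) : ℝ) := by push_cast; linarith
    exact Int.cast_le.mp this

theorem abs_lt_of_floor_eq {s t r : ℝ} (hr : 0 < r) (h : ⌊s * 16 / r⌋ = ⌊t * 16 / r⌋) :
    |s - t| < r / 16 := by
  have := Int.abs_sub_lt_one_of_floor_eq_floor h
  rw [← sub_div, ← sub_mul, abs_div, abs_mul, abs_of_pos hr, div_lt_one hr] at this
  rw [abs_of_pos (by norm_num : (0 : ℝ) < 16)] at this
  linarith

/-- The tower is doubling. -/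
theorem tower_doubling : ∃ lam : ℕ, ∀ z ∈ tower, ∀ r : ℝ, 0 < r → ∃ T : Finset L2,
    (T : Set L2) ⊆ tower ∧ T.card ≤ lam ∧
      tower ∩ Metric.closedBall z r ⊆ ⋃ t ∈ T, Metric.ball t (r / 2) := by
  classical
  let I : Finset ℤ := Finset.Icc (-18) 18
  let K : Finset (ℤ × ℤ × ℕ × ℤ) := I ×ˢ I ×ˢ Finset.range 3 ×ˢ I
  refine ⟨K.card, fun z _ r hr => ?_⟩
  have hex : ∃ j, hh j ≤ 2 * r := by
    obtain ⟨J, hJ⟩ := hh_small (show 0 < 2 * r by linarith)
    exact ⟨J, hJ J le_rfl⟩
  let j0 := Nat.find hex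
  have hj0 : hh j0 ≤ 2 * r := Nat.find_spec hex
  have hj0' : ∀ j < j0, 2 * r < hh j := fun j hj => not_le.mp (Nat.find_min hex hj)
  let val : ℕ → ℤ → ℤ := fun t a =>
    if t = 0 then 0 else if t = 1 then (⌊z 0 / (al j0 * hh j0)⌋ + a) % (nn j0 : ℤ) + 1
      else (⌊z 1 / hh j0⌋ + a) % (nn j0 : ℤ) + 1
  let R : L2 → ℤ × ℤ × ℕ × ℤ → Prop := fun p k => ∃ u v c J, Rep p u v c J ∧
    ⌊(u - z 0) * 16 / r⌋ = k.1 ∧ ⌊(v - z 1) * 16 / r⌋ = k.2.1 ∧
      (hh j0 ≤ r / 16 ∨ (c j0 : ℤ) = val k.2.2.1 k.2.2.2)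
  obtain ⟨T, hT1, hT2, hT3⟩ := cover_of_code (tower ∩ Metric.closedBall z r) K R (r / 2)
    (by
      rintro p ⟨⟨u, v, c, J, hrep⟩, hp⟩
      rw [Metric.mem_closedBall, dist_eq_norm] at hp
      have hu : |u - z 0| ≤ r := by
        have := abs_apply_le (p - z) 0
        rw [lp.coeFn_sub, Pi.sub_apply, hrep.2.2, pt_zero, ← hrep.2.2] at this
        linarith
      have hv : |v - z 1| ≤ r := by
        have := abs_apply_le (p - z) 1
        rw [lp.coeFn_sub, Pi.sub_apply, hrep.2.2, pt_one, ← hrep.2.2] at this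
        linarith
      have h0I : (0 : ℤ) ∈ I := by simp [I]
      have main : ∃ t ∈ Finset.range 3, ∃ a ∈ I, hh j0 ≤ r / 16 ∨ (c j0 : ℤ) = val t a := by
        by_cases hs : hh j0 ≤ r / 16
        · exact ⟨0, by simp, 0, h0I, Or.inl hs⟩
        · push Not at hs
          have hp0 := hh_pos j0
          rcases hrep.1 j0 with h0 | ⟨k, hk, hk1 | hk2⟩
          · exact ⟨0, by simp, 0, h0I, Or.inr (by simp [val, h0])⟩
          · have hal : (1 : ℝ) ≤ al j0 := by
              have : 1 ≤ al j0 := by unfold al; omega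
              exact_mod_cast this
            refine ⟨1, by simp, _, strip_near (by positivity) (by nlinarith) hu hk1, Or.inr ?_⟩
            simp [val, hk]
          · refine ⟨2, by simp, _, strip_near hp0 (by linarith) hv hk2, Or.inr ?_⟩
            simp [val, hk]
      obtain ⟨t, ht, a, ha, hta⟩ := main
      refine ⟨(⌊(u - z 0) * 16 / r⌋, ⌊(v - z 1) * 16 / r⌋, t, a), ?_, u, v, c, J, hrep, rfl, rfl,
        hta⟩
      simp only [K, Finset.mem_product]
      exact ⟨floor_near hr hu, floor_near hr hv, ht, ha⟩)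
    (by
      rintro k p ⟨-, hp⟩ p' ⟨-, hp'⟩ ⟨u, v, c, J, hrep, a1, a2, a3⟩
        ⟨u', v', c', J', hrep', b1, b2, b3⟩
      have hd : ‖p - p'‖ ≤ 2 * r := by
        rw [← dist_eq_norm]
        have := dist_triangle_right p p' z
        rw [Metric.mem_closedBall] at hp hp'
        linarith
      have e1 := abs_lt_of_floor_eq hr (a1.trans b1.symm)
      have e2 := abs_lt_of_floor_eq hr (a2.trans b2.symm)
      rw [sub_sub_sub_cancel_right] at e1 e2
      have e3 := dist_le_sum hrep hrep'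
      have e4 : ∑ j ∈ Finset.range (max J J'), (if c j = c' j then 0 else 2 * hh j)
          ≤ ∑ j ∈ Finset.range (max J J'), ((if j = j0 then r / 8 else 0)
            + if j ≤ j0 then 0 else 2 * hh j) := by
        refine Finset.sum_le_sum fun j _ => ?_
        have hpj := hh_pos j
        rcases lt_trichotomy j j0 with hlt | heq | hgt
        · have : c j = c' j := by
            by_contra hne
            linarith [hh_le_dist hrep hrep' hne, hj0' j hlt]
          rw [if_pos this, if_neg hlt.ne, if_pos hlt.le, add_zero]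
        · rw [if_pos heq, if_pos heq.le, add_zero]
          split_ifs with hcc
          · linarith
          · rw [heq] at hcc ⊢
            rcases a3 with a3 | a3
            · linarith
            · rcases b3 with b3 | b3
              · linarith
              · exact absurd (by exact_mod_cast a3.trans b3.symm) hcc
        · rw [if_neg hgt.ne', if_neg (not_le.mpr hgt), zero_add]
          split_ifs
          · linarith
          · exact le_rfl
      rw [Finset.sum_add_distrib] at e4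
      have e5 := tail_bound j0 (max J J')
      have e6 : ∑ j ∈ Finset.range (max J J'), (if j = j0 then r / 8 else 0) ≤ r / 8 := by
        rw [Finset.sum_ite_eq']
        split_ifs
        · exact le_rfl
        · linarith
      rw [dist_eq_norm]
      linarith)
  exact ⟨T, hT1.trans Set.inter_subset_left, hT2, hT3⟩

end Vale.Agent.P208
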